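import Vale.Agent.P315.H330.Block

/-!
P315, (H3b): the `h` interleaved phases of one machine of one class and one offset.
Block `j` is the index interval `[o + j r h, o + (j+1) r h)`.
-/

set_option linter.unusedSectionVars false

open Finset

namespace Vale.Agent.P315.H330

variable {I E : Type*} [Fintype I] [Fintype E]

lemma sum_range_mul' {M : Type*} [AddCommMonoid M] (f : ℕ → M) (h r : ℕ) :
    ∑ u ∈ range (r * h), f u = ∑ k ∈ range r, ∑ ph ∈ range h, f (k * h + ph) := by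
  induction r with
  | zero => simp
  | succ r ih =>
    rw [Nat.succ_mul, Finset.sum_range_add, ih, Finset.sum_range_succ]

/-- mass of the windows `[b0+u, b0+u+h)` inside the block `[b0, b0+len)`, over the rows whose
drop in the whole block is at most `cap` (sum over the rows) -/
noncomputable def lhs (D : ℤ → I → E → ℝ) (p : I → E) (cap : ℝ) (h len : ℕ) (b0 : ℤ) : ℝ :=
  ∑ u ∈ (range len).filter (fun u => u + h ≤ len), ∑ i,
    (if D b0 i (p i) - D (b0 + len) i (p i) ≤ cap then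
      D (b0 + u) i (p i) - D (b0 + u + h) i (p i) else 0)

lemma anti_int {D : ℤ → I → E → ℝ} (hD : ∀ b i e, D (b + 1) i e ≤ D b i e) (i : I) (e : E) :
    ∀ (b : ℤ) (n : ℕ), D (b + n) i e ≤ D b i e := by
  intro b n
  induction n with
  | zero => simp
  | succ n ih =>
    have := hD (b + n) i e
    push_cast
    rw [← add_assoc]
    linarith

lemma lhs_le {D : ℤ → I → E → ℝ} (hD : ∀ b i e, D (b + 1) i e ≤ D b i e) (p : I → E)
    {cap : ℝ} (hcap : 0 < cap) (h r : ℕ) (b0 : ℤ) :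
    lhs D p cap h (r * h) b0 ≤ ∑ k ∈ range r, ∑ ph ∈ range h,
      pv (wcl cap (D (b0 + ((k * h + ph : ℕ) : ℤ))) (D (b0 + ((k * h + ph : ℕ) : ℤ) + h))) p := by
  rw [← sum_range_mul' (fun u => pv (wcl cap (D (b0 + (u : ℤ))) (D (b0 + (u : ℤ) + h))) p) h r]
  unfold lhs
  have hnn : ∀ u : ℕ, 0 ≤ pv (wcl cap (D (b0 + (u : ℤ))) (D (b0 + (u : ℤ) + h))) p := by
    intro u
    refine Finset.sum_nonneg fun i _ => ?_
    exact le_min (sub_nonneg.2 (anti_int hD i (p i) _ h)) hcap.le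
  refine le_trans ?_ (Finset.sum_le_sum_of_subset_of_nonneg
    (Finset.filter_subset (fun u => u + h ≤ r * h) (range (r * h))) fun u _ _ => hnn u)
  refine Finset.sum_le_sum fun u hu => ?_
  have hu2 : u + h ≤ r * h := (Finset.mem_filter.1 hu).2
  refine Finset.sum_le_sum fun i _ => ?_
  show _ ≤ min (D (b0 + (u : ℤ)) i (p i) - D (b0 + (u : ℤ) + h) i (p i)) cap
  have h1 : D (b0 + (u : ℤ)) i (p i) ≤ D b0 i (p i) := anti_int hD i (p i) b0 u
  have h2 : D (b0 + ((r * h : ℕ) : ℤ)) i (p i) ≤ D (b0 + (u : ℤ) + h) i (p i) := by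
    have := anti_int hD i (p i) (b0 + (u : ℤ) + h) (r * h - (u + h))
    have he : b0 + (u : ℤ) + h + ((r * h - (u + h) : ℕ) : ℤ) = b0 + ((r * h : ℕ) : ℤ) := by
      rw [Nat.cast_sub hu2]
      push_cast
      ring
    rwa [he] at this
  have h3 : D (b0 + (u : ℤ) + h) i (p i) ≤ D (b0 + (u : ℤ)) i (p i) :=
    anti_int hD i (p i) _ h
  split_ifs with hc
  · refine le_min le_rfl ?_
    linarith
  · exact le_min (by linarith) hcap.le

/-- **(H3b), one machine** (one class, one offset): all `h` phases together, in sum form. -/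
theorem h3b_sum {PP : Set (I → E)} {cap zeta e1 e2 : ℝ} {r h : ℕ} {act : ℕ → Prop}
    [DecidablePred act] {D : ℤ → I → E → ℝ} (hD : ∀ b i e, D (b + 1) i e ≤ D b i e)
    (hh : 0 < h) {o : ℤ} {Y X Q : ℕ → ℕ → ℕ → I → E → ℝ}
    (run : ∀ ph, ph < h → Run PP cap zeta e1 e2 r act
      (fun t => D (o + ph + (t : ℤ) * h)) (Y ph) (X ph) (Q ph))
    {p : I → E} (hp : p ∈ PP) (N : ℕ) (A : ℕ → Prop) [DecidablePred A] (hA : ∀ j, A j → act j)
    {pot0 : ℝ} (hpot : ∀ ph, ph < h → pot (Y ph 0 0) p ≤ pot0)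
    {G : ℤ → ℝ}
    (hG : ∀ ph, ph < h → ∀ j, j < N → A j → ∀ k, k < r →
      pv (D (o + ph + ((j * r + k : ℕ) : ℤ) * h)) p
        - pair (D (o + ph + ((j * r + k + 1 : ℕ) : ℤ) * h)) (X ph j k) ≤
      G (o + ph + ((j * r + k : ℕ) : ℤ) * h)) :
    2 / 3 * ∑ j ∈ (range N).filter A, lhs D p cap h (r * h) (o + ((j * (r * h) : ℕ) : ℤ)) ≤
      ∑ j ∈ (range N).filter A, ∑ u ∈ range (r * h), G (o + ((j * (r * h) : ℕ) : ℤ) + u)
      + (h : ℝ) * (cap * (pot0
        + (((range N).filter A).card : ℝ) * ((Fintype.card I : ℝ) * Real.log (1 - zeta)⁻¹)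
        + (((range N).filter (fun j => act j ∧ ¬ A j)).card : ℝ) *
            ((Fintype.card I : ℝ) * Real.log zeta⁻¹)
        + (((range N).filter A).card : ℝ) * ((r : ℝ) * (e1 + e2)))) := by
  have hcap : 0 < cap := (run 0 hh).cap_pos
  -- one phase
  have hph : ∀ ph, ph < h → 2 / 3 * ∑ j ∈ (range N).filter A,
        ∑ k ∈ range r, pv (wcl cap (D (o + ph + ((j * r + k : ℕ) : ℤ) * h))
          (D (o + ph + ((j * r + k + 1 : ℕ) : ℤ) * h))) p ≤
      ∑ j ∈ (range N).filter A, ∑ k ∈ range r, G (o + ph + ((j * r + k : ℕ) : ℤ) * h)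
      + cap * (pot0
        + (((range N).filter A).card : ℝ) * ((Fintype.card I : ℝ) * Real.log (1 - zeta)⁻¹)
        + (((range N).filter (fun j => act j ∧ ¬ A j)).card : ℝ) *
            ((Fintype.card I : ℝ) * Real.log zeta⁻¹)
        + (((range N).filter A).card : ℝ) * ((r : ℝ) * (e1 + e2))) := by
    intro ph hph
    have h1 := (run ph hph).regret hp N A hA
    have h2 : ∑ j ∈ (range N).filter A, ∑ k ∈ range r,
        (pv (D (o + ph + ((j * r + k : ℕ) : ℤ) * h)) p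
          - pair (D (o + ph + ((j * r + k + 1 : ℕ) : ℤ) * h)) (X ph j k)) ≤
        ∑ j ∈ (range N).filter A, ∑ k ∈ range r, G (o + ph + ((j * r + k : ℕ) : ℤ) * h) := by
      refine Finset.sum_le_sum fun j hj => Finset.sum_le_sum fun k hk => ?_
      have hj' := Finset.mem_filter.1 hj
      exact hG ph hph j (Finset.mem_range.1 hj'.1) hj'.2 k (Finset.mem_range.1 hk)
    have h3 := mul_le_mul_of_nonneg_left (hpot ph hph) hcap.le
    rw [mul_add cap, mul_add cap, mul_add cap] at h1 ⊢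
    linarith
  have hsum := Finset.sum_le_sum (s := range h) fun ph hph' => hph ph (Finset.mem_range.1 hph')
  rw [Finset.sum_add_distrib] at hsum
  simp only [Finset.sum_const, Finset.card_range, nsmul_eq_mul] at hsum
  rw [← Finset.mul_sum] at hsum
  -- identify the sums
  have eA : ∀ F : ℕ → ℕ → ℕ → ℝ, ∑ ph ∈ range h, ∑ j ∈ (range N).filter A, ∑ k ∈ range r, F ph j k
      = ∑ j ∈ (range N).filter A, ∑ k ∈ range r, ∑ ph ∈ range h, F ph j k := by
    intro F
    rw [Finset.sum_comm]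
    refine Finset.sum_congr rfl fun j _ => ?_
    rw [Finset.sum_comm]
  rw [eA, eA] at hsum
  have hidx : ∀ (ph j k : ℕ), o + (ph : ℤ) + ((j * r + k : ℕ) : ℤ) * h =
      o + ((j * (r * h) : ℕ) : ℤ) + ((k * h + ph : ℕ) : ℤ) := by
    intro ph j k
    push_cast
    ring
  have hidx2 : ∀ (ph j k : ℕ), o + (ph : ℤ) + ((j * r + k + 1 : ℕ) : ℤ) * h =
      o + ((j * (r * h) : ℕ) : ℤ) + ((k * h + ph : ℕ) : ℤ) + h := by
    intro ph j k
    push_cast
    ring
  have eG : ∑ j ∈ (range N).filter A, ∑ k ∈ range r, ∑ ph ∈ range h,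
      G (o + ph + ((j * r + k : ℕ) : ℤ) * h) =
      ∑ j ∈ (range N).filter A, ∑ u ∈ range (r * h), G (o + ((j * (r * h) : ℕ) : ℤ) + u) := by
    refine Finset.sum_congr rfl fun j _ => ?_
    rw [sum_range_mul' (fun u => G (o + ((j * (r * h) : ℕ) : ℤ) + u)) h r]
    refine Finset.sum_congr rfl fun k _ => Finset.sum_congr rfl fun ph _ => ?_
    rw [hidx]
  have eL : ∑ j ∈ (range N).filter A, lhs D p cap h (r * h) (o + ((j * (r * h) : ℕ) : ℤ)) ≤
      ∑ j ∈ (range N).filter A, ∑ k ∈ range r, ∑ ph ∈ range h,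
        pv (wcl cap (D (o + ph + ((j * r + k : ℕ) : ℤ) * h))
          (D (o + ph + ((j * r + k + 1 : ℕ) : ℤ) * h))) p := by
    refine Finset.sum_le_sum fun j _ => ?_
    refine (lhs_le hD p hcap h r _).trans (le_of_eq ?_)
    refine Finset.sum_congr rfl fun k _ => Finset.sum_congr rfl fun ph _ => ?_
    rw [hidx, hidx2]
  rw [eG] at hsum
  linarith

/-- **(H3b)** in averaged form, for the active blocks of class `c` (`c = 2^-l`):
`c/2 ≤ m j` for the active blocks, total drop at most one, `cap = C7 c`. -/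
theorem h3b {PP : Set (I → E)} {c C7 zeta e1 e2 : ℝ} {r h : ℕ} {act : ℕ → Prop}
    [DecidablePred act] [Nonempty I] {D : ℤ → I → E → ℝ}
    (hD : ∀ b i e, D (b + 1) i e ≤ D b i e)
    (hh : 0 < h) {o : ℤ} {Y X Q : ℕ → ℕ → ℕ → I → E → ℝ} (hc : 0 < c) (hC7 : 0 < C7)
    (run : ∀ ph, ph < h → Run PP (C7 * c) zeta e1 e2 r act
      (fun t => D (o + ph + (t : ℤ) * h)) (Y ph) (X ph) (Q ph))
    {p : I → E} (hp : p ∈ PP) (N : ℕ) (A : ℕ → Prop) [DecidablePred A] (hA : ∀ j, A j → act j)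
    {lE : ℝ} (hpot : ∀ ph, ph < h → pot (Y ph 0 0) p ≤ (Fintype.card I : ℝ) * lE)
    (he : 0 ≤ e1 + e2)
    {G : ℤ → ℝ} {del : ℝ} (hdel : 0 ≤ del)
    (hG : ∀ ph, ph < h → ∀ j, j < N → A j → ∀ k, k < r →
      pv (D (o + ph + ((j * r + k : ℕ) : ℤ) * h)) p
        - pair (D (o + ph + ((j * r + k + 1 : ℕ) : ℤ) * h)) (X ph j k) ≤
      (Fintype.card I : ℝ) * (G (o + ph + ((j * r + k : ℕ) : ℤ) * h) + del))
    {m : ℕ → ℝ} (hm : ∀ j, j < N → act j → c ≤ 2 * m j)
    (hm0 : ∀ j, j < N → 0 ≤ m j) (hm1 : ∑ j ∈ range N, m j ≤ 1) :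
    ∑ j ∈ (range N).filter A,
        lhs D p (C7 * c) h (r * h) (o + ((j * (r * h) : ℕ) : ℤ)) / (Fintype.card I : ℝ) ≤
      3 / 2 * ∑ j ∈ (range N).filter A, ∑ u ∈ range (r * h), G (o + ((j * (r * h) : ℕ) : ℤ) + u)
      + ∑ j ∈ (range N).filter (fun j => act j ∧ ¬ A j),
          (h : ℝ) * (3 * C7 * Real.log zeta⁻¹) * m j
      + 3 / 2 * ((h : ℝ) * (C7 * c) * lE
        + 2 * C7 * h * Real.log (1 - zeta)⁻¹
        + 2 / c * ((r * h : ℕ) : ℝ) * (del + C7 * c * ((e1 + e2) / (Fintype.card I : ℝ)))) := by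
  have hcI : (0 : ℝ) < (Fintype.card I : ℝ) := by exact_mod_cast Fintype.card_pos
  set cI : ℝ := (Fintype.card I : ℝ) with hcIdef
  have hz := (run 0 hh).zeta_pos
  have hz1 := (run 0 hh).zeta_lt
  have hlz : 0 ≤ Real.log zeta⁻¹ := Real.log_nonneg (by
    rw [one_le_inv₀ hz]; exact hz1.le)
  have hlz1 : 0 ≤ Real.log (1 - zeta)⁻¹ := Real.log_nonneg (by
    rw [one_le_inv₀ (by linarith)]; linarith)
  have hs := h3b_sum (G := fun b => cI * (G b + del)) hD hh run hp N A hA hpot hG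
  -- number of active blocks
  have hcard : (((range N).filter act).card : ℝ) * c ≤ 2 := by
    have h1 : ∑ j ∈ (range N).filter act, c ≤ ∑ j ∈ (range N).filter act, 2 * m j := by
      refine Finset.sum_le_sum fun j hj => ?_
      have hj' := Finset.mem_filter.1 hj
      exact hm j (Finset.mem_range.1 hj'.1) hj'.2
    have h2 : ∑ j ∈ (range N).filter act, 2 * m j ≤ ∑ j ∈ range N, 2 * m j :=
      Finset.sum_le_sum_of_subset_of_nonneg (Finset.filter_subset _ _) fun j hj _ => by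
        have := hm0 j (Finset.mem_range.1 hj)
        linarith
    rw [Finset.sum_const, nsmul_eq_mul] at h1
    have h3 : ∑ j ∈ range N, 2 * m j = 2 * ∑ j ∈ range N, m j := by rw [Finset.mul_sum]
    linarith
  have hsubA : ((range N).filter A).card ≤ ((range N).filter act).card := by
    refine Finset.card_le_card fun j hj => ?_
    have hj' := Finset.mem_filter.1 hj
    exact Finset.mem_filter.2 ⟨hj'.1, hA j hj'.2⟩
  have hcardA : (((range N).filter A).card : ℝ) * c ≤ 2 := by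
    have : (((range N).filter A).card : ℝ) ≤ (((range N).filter act).card : ℝ) := by
      exact_mod_cast hsubA
    nlinarith
  have hcardA' : (((range N).filter A).card : ℝ) ≤ 2 / c := by
    rw [le_div_iff₀ hc]; exact hcardA
  set nA : ℝ := (((range N).filter A).card : ℝ) with hnA
  have hnA0 : 0 ≤ nA := by rw [hnA]; positivity
  -- the rest blocks
  have hrest : (((range N).filter (fun j => act j ∧ ¬ A j)).card : ℝ) * (C7 * c) ≤
      ∑ j ∈ (range N).filter (fun j => act j ∧ ¬ A j), 2 * C7 * m j := by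
    have : ∑ j ∈ (range N).filter (fun j => act j ∧ ¬ A j), C7 * c ≤
        ∑ j ∈ (range N).filter (fun j => act j ∧ ¬ A j), 2 * C7 * m j := by
      refine Finset.sum_le_sum fun j hj => ?_
      have hj' := Finset.mem_filter.1 hj
      have := hm j (Finset.mem_range.1 hj'.1) hj'.2.1
      nlinarith
    rwa [Finset.sum_const, nsmul_eq_mul] at this
  set nR : ℝ := (((range N).filter (fun j => act j ∧ ¬ A j)).card : ℝ) with hnR
  -- G sum
  have hGs : ∑ j ∈ (range N).filter A, ∑ u ∈ range (r * h),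
      cI * (G (o + ((j * (r * h) : ℕ) : ℤ) + u) + del) =
      cI * (∑ j ∈ (range N).filter A, ∑ u ∈ range (r * h), G (o + ((j * (r * h) : ℕ) : ℤ) + u)
        + nA * (((r * h : ℕ) : ℝ) * del)) := by
    simp only [Finset.mul_sum, mul_add, Finset.sum_add_distrib, Finset.sum_const,
      Finset.card_range, nsmul_eq_mul]
    rw [hnA]
    ring
  rw [hGs] at hs
  -- divide by cI
  rw [← Finset.sum_div]
  rw [div_le_iff₀ hcI]
  set SL : ℝ := ∑ j ∈ (range N).filter A, lhs D p (C7 * c) h (r * h)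
    (o + ((j * (r * h) : ℕ) : ℤ)) with hSL
  set SG : ℝ := ∑ j ∈ (range N).filter A, ∑ u ∈ range (r * h),
    G (o + ((j * (r * h) : ℕ) : ℤ) + u) with hSG
  have hS1 : SL ≤ 3 / 2 * (cI * (SG + nA * (((r * h : ℕ) : ℝ) * del))
      + (h : ℝ) * (C7 * c * (cI * lE + nA * (cI * Real.log (1 - zeta)⁻¹)
        + nR * (cI * Real.log zeta⁻¹) + nA * ((r : ℝ) * (e1 + e2))))) := by linarith
  have hh0 : (0 : ℝ) ≤ h := by positivity
  have t1 : (h : ℝ) * (C7 * c * (nR * (cI * Real.log zeta⁻¹))) ≤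
      cI * ∑ j ∈ (range N).filter (fun j => act j ∧ ¬ A j),
        (h : ℝ) * (2 * C7 * Real.log zeta⁻¹) * m j := by
    have e1' : ∑ j ∈ (range N).filter (fun j => act j ∧ ¬ A j),
        (h : ℝ) * (2 * C7 * Real.log zeta⁻¹) * m j =
        (h : ℝ) * Real.log zeta⁻¹ * ∑ j ∈ (range N).filter (fun j => act j ∧ ¬ A j),
          2 * C7 * m j := by
      rw [Finset.mul_sum]
      refine Finset.sum_congr rfl fun j _ => ?_
      ring
    rw [e1']
    have h7 := mul_le_mul_of_nonneg_left hrest (mul_nonneg (mul_nonneg hcI.le hh0) hlz)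
    calc (h : ℝ) * (C7 * c * (nR * (cI * Real.log zeta⁻¹)))
        = cI * (h : ℝ) * Real.log zeta⁻¹ * (nR * (C7 * c)) := by ring
      _ ≤ cI * (h : ℝ) * Real.log zeta⁻¹ *
          ∑ j ∈ (range N).filter (fun j => act j ∧ ¬ A j), 2 * C7 * m j := h7
      _ = _ := by ring
  have t2 : (h : ℝ) * (C7 * c * (nA * (cI * Real.log (1 - zeta)⁻¹))) ≤
      cI * (2 * C7 * h * Real.log (1 - zeta)⁻¹) := by
    have h7 := mul_le_mul_of_nonneg_left hcardA
      (mul_nonneg (mul_nonneg (mul_nonneg hcI.le hh0) hC7.le) hlz1)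
    calc (h : ℝ) * (C7 * c * (nA * (cI * Real.log (1 - zeta)⁻¹)))
        = cI * (h : ℝ) * C7 * Real.log (1 - zeta)⁻¹ * (nA * c) := by ring
      _ ≤ cI * (h : ℝ) * C7 * Real.log (1 - zeta)⁻¹ * 2 := h7
      _ = _ := by ring
  have hrh0 : (0 : ℝ) ≤ ((r * h : ℕ) : ℝ) := by positivity
  have t3 : cI * (nA * (((r * h : ℕ) : ℝ) * del)) ≤ cI * (2 / c * ((r * h : ℕ) : ℝ) * del) := by
    have h7 := mul_le_mul_of_nonneg_left hcardA' (mul_nonneg (mul_nonneg hcI.le hrh0) hdel)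
    calc cI * (nA * (((r * h : ℕ) : ℝ) * del))
        = cI * ((r * h : ℕ) : ℝ) * del * nA := by ring
      _ ≤ cI * ((r * h : ℕ) : ℝ) * del * (2 / c) := h7
      _ = _ := by ring
  have t4 : (h : ℝ) * (C7 * c * (nA * ((r : ℝ) * (e1 + e2)))) ≤
      cI * (2 / c * ((r * h : ℕ) : ℝ) * (C7 * c * ((e1 + e2) / cI))) := by
    have h5 : cI * (2 / c * ((r * h : ℕ) : ℝ) * (C7 * c * ((e1 + e2) / cI))) =
        (2 / c) * (((r * h : ℕ) : ℝ) * (C7 * c) * (e1 + e2)) := by
      field_simp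
    rw [h5]
    have h6 : (h : ℝ) * (C7 * c * (nA * ((r : ℝ) * (e1 + e2)))) =
        nA * (((r * h : ℕ) : ℝ) * (C7 * c) * (e1 + e2)) := by
      push_cast
      ring
    rw [h6]
    exact mul_le_mul_of_nonneg_right hcardA' (by positivity)
  have e3 : ∑ j ∈ (range N).filter (fun j => act j ∧ ¬ A j),
      (h : ℝ) * (3 * C7 * Real.log zeta⁻¹) * m j =
      3 / 2 * ∑ j ∈ (range N).filter (fun j => act j ∧ ¬ A j),
        (h : ℝ) * (2 * C7 * Real.log zeta⁻¹) * m j := by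
    rw [Finset.mul_sum]
    refine Finset.sum_congr rfl fun j _ => ?_
    ring
  rw [e3]
  have hsplit : cI * (SG + nA * (((r * h : ℕ) : ℝ) * del))
      + (h : ℝ) * (C7 * c * (cI * lE + nA * (cI * Real.log (1 - zeta)⁻¹)
        + nR * (cI * Real.log zeta⁻¹) + nA * ((r : ℝ) * (e1 + e2)))) =
      cI * SG + cI * (nA * (((r * h : ℕ) : ℝ) * del)) + cI * ((h : ℝ) * (C7 * c) * lE)
      + (h : ℝ) * (C7 * c * (nA * (cI * Real.log (1 - zeta)⁻¹)))
      + (h : ℝ) * (C7 * c * (nR * (cI * Real.log zeta⁻¹)))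
      + (h : ℝ) * (C7 * c * (nA * ((r : ℝ) * (e1 + e2)))) := by ring
  rw [hsplit] at hS1
  have hfin : (3 / 2 * SG
      + 3 / 2 * ∑ j ∈ (range N).filter (fun j => act j ∧ ¬ A j),
        (h : ℝ) * (2 * C7 * Real.log zeta⁻¹) * m j
      + 3 / 2 * ((h : ℝ) * (C7 * c) * lE
        + 2 * C7 * h * Real.log (1 - zeta)⁻¹
        + 2 / c * ((r * h : ℕ) : ℝ) * (del + C7 * c * ((e1 + e2) / cI)))) * cI =
      3 / 2 * (cI * SG + cI * (2 / c * ((r * h : ℕ) : ℝ) * del)
        + cI * ((h : ℝ) * (C7 * c) * lE)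
        + cI * (2 * C7 * h * Real.log (1 - zeta)⁻¹)
        + cI * ∑ j ∈ (range N).filter (fun j => act j ∧ ¬ A j),
            (h : ℝ) * (2 * C7 * Real.log zeta⁻¹) * m j
        + cI * (2 / c * ((r * h : ℕ) : ℝ) * (C7 * c * ((e1 + e2) / cI)))) := by ring
  rw [hfin]
  linarith

end Vale.Agent.P315.H330
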