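import Vale.Agent.P315.H330.MD

/-!
Part B of the P315 blueprint: online lemma with block restart.
Plain finite sums; the solver enters only through `Solved`.
-/

open Finset

set_option linter.unusedSectionVars false

namespace Vale.Agent.P315.H330

variable {I E : Type*} [Fintype I] [Fintype E]

/-- potential of a path `p` with respect to the state `y` (sum over the rows) -/
noncomputable def pot (y : I → E → ℝ) (p : I → E) : ℝ := -∑ i, Real.log (y i (p i))

/-- value of a path (sum over the rows) -/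
noncomputable def pv (D : I → E → ℝ) (p : I → E) : ℝ := ∑ i, D i (p i)

/-- Solver specification for the linear costs `L` on the set `PP` of admissible paths:
`xh` = row marginals of the lane law, `q` = a positive smoothing of it. -/
structure Solved (PP : Set (I → E)) (L xh q : I → E → ℝ) (e1 e2 : ℝ) : Prop where
  xh_nonneg : ∀ i e, 0 ≤ xh i e
  xh_sum : ∀ i, ∑ e, xh i e = 1
  q_pos : ∀ i e, 0 < q i e
  q_sum : ∀ i, ∑ e, q i e ≤ 1
  q_le : ∃ r : I → E → ℝ, (∀ i e, 0 ≤ r i e) ∧ ∑ i, ∑ e, r i e ≤ e2 ∧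
    ∀ i e, q i e ≤ xh i e + r i e
  opt : ∀ p ∈ PP, pot q p ≤ pv L p - (pair L xh + ent xh) + e1

/-- clipped decrease of one round -/
noncomputable def wcl (cap : ℝ) (D D' : I → E → ℝ) : I → E → ℝ :=
  fun i e => min (D i e - D' i e) cap

/-- normaliser of the update -/
noncomputable def Zr (cap : ℝ) (D D' q : I → E → ℝ) (i : I) : ℝ :=
  ∑ e, q i e * (1 + cap⁻¹ * wcl cap D D' i e)

/-- the state after the round -/
noncomputable def upd (cap : ℝ) (D D' q : I → E → ℝ) : I → E → ℝ :=
  fun i e => q i e * (1 + cap⁻¹ * wcl cap D D' i e) / Zr cap D D' q i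

section Round

variable {PP : Set (I → E)} {D D' y xh q : I → E → ℝ} {cap e1 e2 : ℝ}

lemma wcl_nonneg (hcap : 0 < cap) (hD : ∀ i e, D' i e ≤ D i e) (i : I) (e : E) :
    0 ≤ wcl cap D D' i e :=
  le_min (sub_nonneg.2 (hD i e)) hcap.le

lemma wcl_le_cap (i : I) (e : E) : wcl cap D D' i e ≤ cap := min_le_right _ _

lemma inv_wcl_le_one (hcap : 0 < cap) (i : I) (e : E) : cap⁻¹ * wcl cap D D' i e ≤ 1 := by
  have h := mul_le_mul_of_nonneg_left (wcl_le_cap (D := D) (D' := D') (cap := cap) i e)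
    (inv_nonneg.2 hcap.le)
  rwa [inv_mul_cancel₀ hcap.ne'] at h

lemma fac_pos (hcap : 0 < cap) (hD : ∀ i e, D' i e ≤ D i e) (i : I) (e : E) :
    0 < 1 + cap⁻¹ * wcl cap D D' i e := by
  have := mul_nonneg (inv_nonneg.2 hcap.le) (wcl_nonneg hcap hD i e)
  linarith

lemma Zr_pos (hcap : 0 < cap) (hD : ∀ i e, D' i e ≤ D i e) (hq : ∀ i e, 0 < q i e)
    (i : I) (e : E) : 0 < Zr cap D D' q i := by
  refine Finset.sum_pos (fun e' _ => mul_pos (hq i e') (fac_pos hcap hD i e')) ⟨e, Finset.mem_univ e⟩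

lemma upd_pos (hcap : 0 < cap) (hD : ∀ i e, D' i e ≤ D i e) (hq : ∀ i e, 0 < q i e)
    (i : I) (e : E) : 0 < upd cap D D' q i e :=
  div_pos (mul_pos (hq i e) (fac_pos hcap hD i e)) (Zr_pos hcap hD hq i e)

lemma upd_sum (hcap : 0 < cap) (hD : ∀ i e, D' i e ≤ D i e) (hq : ∀ i e, 0 < q i e)
    (i : I) : ∑ e, upd cap D D' q i e ≤ 1 := by
  rcases isEmpty_or_nonempty E with h | ⟨⟨e⟩⟩
  · simp
  · have hZ := Zr_pos hcap hD hq i e
    simp only [upd]
    rw [← Finset.sum_div]
    exact le_of_eq (div_self hZ.ne')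

/-- One round: the potential drops by the clipped decrease of the path, up to the regret. -/
theorem round (hcap : 0 < cap) (hy : ∀ i e, 0 < y i e) (hys : ∀ i, ∑ e, y i e ≤ 1)
    (hD : ∀ i e, D' i e ≤ D i e)
    (hS : Solved PP (fun i e => cap⁻¹ * D i e - Real.log (y i e)) xh q e1 e2)
    {p : I → E} (hp : p ∈ PP) :
    pot (upd cap D D' q) p + 2 / 3 * (cap⁻¹ * pv (wcl cap D D') p) ≤
      pot y p + cap⁻¹ * (pv D p - pair D' xh) + e1 + e2 := by
  have hci : 0 < cap⁻¹ := inv_pos.2 hcap
  obtain ⟨r, hr0, hr1, hqr⟩ := hS.q_le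
  -- the optimality
  have h1 := hS.opt p hp
  have hpvL : pv (fun i e => cap⁻¹ * D i e - Real.log (y i e)) p = cap⁻¹ * pv D p + pot y p := by
    simp only [pv, pot, Finset.sum_sub_distrib, Finset.mul_sum]
    ring
  have hF : cap⁻¹ * pair D xh ≤
      pair (fun i e => cap⁻¹ * D i e - Real.log (y i e)) xh + ent xh := by
    have e1' : pair (fun i e => cap⁻¹ * D i e - Real.log (y i e)) xh + ent xh =
        cap⁻¹ * pair D xh + ∑ i, ∑ e, (xh i e * Real.log (xh i e)
          - xh i e * Real.log (y i e) - 0 * xh i e) := by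
      simp only [pair, ent, Finset.mul_sum, ← Finset.sum_add_distrib]
      refine Finset.sum_congr rfl fun i _ => Finset.sum_congr rfl fun e _ => ?_
      ring
    have e2' : ∑ i, ∑ e, (xh i e - y i e * (1 + 2 * 0)) ≤
        ∑ i, ∑ e, (xh i e * Real.log (xh i e) - xh i e * Real.log (y i e) - 0 * xh i e) :=
      Finset.sum_le_sum fun i _ => Finset.sum_le_sum fun e _ =>
        coord_gibbs (hS.xh_nonneg i e) (hy i e).le (fun h => absurd h (hy i e).ne') le_rfl
          zero_le_one
    have e3' : 0 ≤ ∑ i, ∑ e, (xh i e - y i e * (1 + 2 * 0)) := by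
      refine Finset.sum_nonneg fun i _ => ?_
      simp only [mul_zero, add_zero, mul_one, Finset.sum_sub_distrib, hS.xh_sum i]
      linarith [hys i]
    rw [e1']
    linarith
  -- the update
  have hpot : pot (upd cap D D' q) p = pot q p
      - ∑ i, Real.log (1 + cap⁻¹ * wcl cap D D' i (p i)) + ∑ i, Real.log (Zr cap D D' q i) := by
    simp only [pot, upd]
    rw [← Finset.sum_neg_distrib, ← Finset.sum_neg_distrib, ← Finset.sum_sub_distrib,
      ← Finset.sum_add_distrib]
    refine Finset.sum_congr rfl fun i _ => ?_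
    have hq := hS.q_pos i (p i)
    have hf := fac_pos hcap hD i (p i)
    have hZ := Zr_pos hcap hD hS.q_pos i (p i)
    rw [Real.log_div (mul_pos hq hf).ne' hZ.ne', Real.log_mul hq.ne' hf.ne']
    ring
  have hlogw : 2 / 3 * (cap⁻¹ * pv (wcl cap D D') p) ≤
      ∑ i, Real.log (1 + cap⁻¹ * wcl cap D D' i (p i)) := by
    simp only [pv, Finset.mul_sum]
    refine Finset.sum_le_sum fun i _ => ?_
    set s : ℝ := cap⁻¹ * wcl cap D D' i (p i) with hs
    have hs0 : 0 ≤ s := mul_nonneg hci.le (wcl_nonneg hcap hD i (p i))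
    have hs1 : s ≤ 1 := inv_wcl_le_one hcap i (p i)
    have h := Real.le_log_one_add_of_nonneg hs0
    have h2 : 2 / 3 * s ≤ 2 * s / (s + 2) := by
      rw [le_div_iff₀ (by linarith)]
      nlinarith
    linarith
  have hlogZ : ∑ i, Real.log (Zr cap D D' q i) ≤
      cap⁻¹ * (pair D xh - pair D' xh) + e2 := by
    have hz : ∀ i, Real.log (Zr cap D D' q i) ≤
        ∑ e, q i e * (cap⁻¹ * wcl cap D D' i e) := by
      intro i
      have hZ := Zr_pos hcap hD hS.q_pos i (p i)
      have h := Real.log_le_sub_one_of_pos hZ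
      have h2 : Zr cap D D' q i = ∑ e, q i e + ∑ e, q i e * (cap⁻¹ * wcl cap D D' i e) := by
        simp only [Zr, mul_add, mul_one, Finset.sum_add_distrib]
      have h3 := hS.q_sum i
      linarith
    have hz2 : ∑ i, Real.log (Zr cap D D' q i) ≤
        ∑ i, ∑ e, (cap⁻¹ * (wcl cap D D' i e * xh i e) + r i e) := by
      refine Finset.sum_le_sum fun i _ => (hz i).trans ?_
      refine Finset.sum_le_sum fun e _ => ?_
      have hw0 := mul_nonneg hci.le (wcl_nonneg hcap hD i e)
      have hw1 := inv_wcl_le_one (D := D) (D' := D') hcap i e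
      have h1 := mul_le_mul_of_nonneg_right (hqr i e) hw0
      have h2 := mul_le_mul_of_nonneg_left hw1 (hr0 i e)
      nlinarith
    have hz3 : ∑ i, ∑ e, (cap⁻¹ * (wcl cap D D' i e * xh i e) + r i e) =
        cap⁻¹ * pair (wcl cap D D') xh + ∑ i, ∑ e, r i e := by
      simp only [pair, Finset.mul_sum, Finset.sum_add_distrib]
    have hz4 : pair (wcl cap D D') xh ≤ pair D xh - pair D' xh := by
      rw [← pair_sub_left]
      exact pair_le_pair hS.xh_nonneg fun i e => min_le_left _ _
    have hz5 := mul_le_mul_of_nonneg_left hz4 hci.le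
    linarith
  rw [hpvL] at h1
  rw [hpot]
  have hexp : cap⁻¹ * (pv D p - pair D' xh) =
      cap⁻¹ * pv D p - cap⁻¹ * pair D' xh := by ring
  have hexp2 : cap⁻¹ * (pair D xh - pair D' xh) =
      cap⁻¹ * pair D xh - cap⁻¹ * pair D' xh := by ring
  rw [hexp2] at hlogZ
  linarith

end Round

lemma pot_nonneg {y : I → E → ℝ} (hy : ∀ i e, 0 < y i e) (hys : ∀ i, ∑ e, y i e ≤ 1)
    (p : I → E) : 0 ≤ pot y p := by
  simp only [pot]
  rw [← Finset.sum_neg_distrib]
  refine Finset.sum_nonneg fun i _ => ?_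
  have h1 : y i (p i) ≤ 1 :=
    (Finset.single_le_sum (fun e' _ => (hy i e').le) (Finset.mem_univ (p i))).trans (hys i)
  have := Real.log_nonpos (hy i (p i)).le h1
  linarith

lemma pot_mono_scale {y z : I → E → ℝ} {a : ℝ} (ha : 0 < a) (hy : ∀ i e, 0 < y i e)
    (h : ∀ i e, a * y i e ≤ z i e) (p : I → E) :
    pot z p ≤ pot y p + (Fintype.card I : ℝ) * Real.log a⁻¹ := by
  have h1 : ∀ i, -Real.log (z i (p i)) ≤ -Real.log (y i (p i)) + Real.log a⁻¹ := by
    intro i
    have h2 := Real.log_le_log (mul_pos ha (hy i (p i))) (h i (p i))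
    rw [Real.log_mul ha.ne' (hy i (p i)).ne'] at h2
    rw [Real.log_inv]
    linarith
  simp only [pot]
  rw [← Finset.sum_neg_distrib, ← Finset.sum_neg_distrib]
  calc ∑ i, -Real.log (z i (p i)) ≤ ∑ i, (-Real.log (y i (p i)) + Real.log a⁻¹) :=
        Finset.sum_le_sum fun i _ => h1 i
    _ = _ := by
        rw [Finset.sum_add_distrib]
        simp

/-- A run of the machine: `r` rounds per block, `Y j k` the state in block `j` before round `k`,
`D t` the values at round `t = j * r + k`. -/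
structure Run (PP : Set (I → E)) (cap zeta e1 e2 : ℝ) (r : ℕ) (act : ℕ → Prop)
    (D : ℕ → I → E → ℝ) (Y : ℕ → ℕ → I → E → ℝ) (X Q : ℕ → ℕ → I → E → ℝ) : Prop where
  cap_pos : 0 < cap
  zeta_pos : 0 < zeta
  zeta_lt : zeta < 1
  anti : ∀ t i e, D (t + 1) i e ≤ D t i e
  solved : ∀ j k, k < r →
    Solved PP (fun i e => cap⁻¹ * D (j * r + k) i e - Real.log (Y j k i e)) (X j k) (Q j k) e1 e2
  step : ∀ j k, k < r → Y j (k + 1) = upd cap (D (j * r + k)) (D (j * r + k + 1)) (Q j k)
  start_pos : ∀ i e, 0 < Y 0 0 i e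
  start_sum : ∀ i, ∑ e, Y 0 0 i e ≤ 1
  next_act : ∀ j, act j → Y (j + 1) 0 = fun i e => (1 - zeta) * Y j r i e + zeta * Y j 0 i e
  next_not : ∀ j, ¬ act j → Y (j + 1) 0 = Y j 0

namespace Run

variable {PP : Set (I → E)} {cap zeta e1 e2 : ℝ} {r : ℕ} {act : ℕ → Prop}
  {D : ℕ → I → E → ℝ} {Y X Q : ℕ → ℕ → I → E → ℝ}

lemma inBlock (h : Run PP cap zeta e1 e2 r act D Y X Q) (j : ℕ)
    (h0 : (∀ i e, 0 < Y j 0 i e) ∧ ∀ i, ∑ e, Y j 0 i e ≤ 1) :
    ∀ k, k ≤ r → (∀ i e, 0 < Y j k i e) ∧ ∀ i, ∑ e, Y j k i e ≤ 1 := by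
  intro k
  induction k with
  | zero => intro _; exact h0
  | succ k ih =>
    intro hk
    rw [h.step j k (by omega)]
    have hq := (h.solved j k (by omega)).q_pos
    exact ⟨fun i e => upd_pos h.cap_pos (h.anti _) hq i e,
      fun i => upd_sum h.cap_pos (h.anti _) hq i⟩

lemma good (h : Run PP cap zeta e1 e2 r act D Y X Q) :
    ∀ j, (∀ i e, 0 < Y j 0 i e) ∧ ∀ i, ∑ e, Y j 0 i e ≤ 1 := by
  intro j
  induction j with
  | zero => exact ⟨h.start_pos, h.start_sum⟩
  | succ j ih =>
    by_cases ha : act j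
    · rw [h.next_act j ha]
      have hr := h.inBlock j ih r le_rfl
      have h1 : 0 < 1 - zeta := by linarith [h.zeta_lt]
      refine ⟨fun i e => add_pos (mul_pos h1 (hr.1 i e)) (mul_pos h.zeta_pos (ih.1 i e)),
        fun i => ?_⟩
      rw [Finset.sum_add_distrib, ← Finset.mul_sum, ← Finset.mul_sum]
      have a1 := mul_le_mul_of_nonneg_left (hr.2 i) h1.le
      have a2 := mul_le_mul_of_nonneg_left (ih.2 i) h.zeta_pos.le
      linarith
    · rw [h.next_not j ha]
      exact ih

/-- inside one block -/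
lemma block (h : Run PP cap zeta e1 e2 r act D Y X Q) {p : I → E} (hp : p ∈ PP) (j : ℕ) :
    ∀ k, k ≤ r → pot (Y j k) p
        + 2 / 3 * (cap⁻¹ * ∑ t ∈ range k, pv (wcl cap (D (j * r + t)) (D (j * r + t + 1))) p) ≤
      pot (Y j 0) p + cap⁻¹ * ∑ t ∈ range k, (pv (D (j * r + t)) p
        - pair (D (j * r + t + 1)) (X j t)) + (k : ℝ) * (e1 + e2) := by
  intro k
  induction k with
  | zero => intro _; simp
  | succ k ih =>
    intro hk
    have h1 := ih (by omega)
    have hk' : k < r := by omega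
    obtain ⟨hy, hys⟩ := h.inBlock j (h.good j) k (by omega)
    have h2 := round h.cap_pos hy hys (h.anti (j * r + k)) (h.solved j k hk') hp
    rw [← h.step j k hk'] at h2
    rw [Finset.sum_range_succ, Finset.sum_range_succ]
    push_cast
    rw [mul_add, mul_add, mul_add]
    linarith

/-- **Online lemma with block restart.** For every admissible path `p` and every splitting of the
active blocks below `N` into `A` and the rest. -/
theorem regret [DecidablePred act] (h : Run PP cap zeta e1 e2 r act D Y X Q) {p : I → E}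
    (hp : p ∈ PP) (N : ℕ) (A : ℕ → Prop) [DecidablePred A] (hA : ∀ j, A j → act j) :
    2 / 3 * ∑ j ∈ (range N).filter A,
        ∑ t ∈ range r, pv (wcl cap (D (j * r + t)) (D (j * r + t + 1))) p ≤
      ∑ j ∈ (range N).filter A, ∑ t ∈ range r,
        (pv (D (j * r + t)) p - pair (D (j * r + t + 1)) (X j t))
      + cap * (pot (Y 0 0) p
        + (((range N).filter A).card : ℝ) * ((Fintype.card I : ℝ) * Real.log (1 - zeta)⁻¹)
        + (((range N).filter (fun j => act j ∧ ¬ A j)).card : ℝ) *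
            ((Fintype.card I : ℝ) * Real.log zeta⁻¹)
        + (((range N).filter A).card : ℝ) * ((r : ℝ) * (e1 + e2))) := by
  have hci : 0 < cap⁻¹ := inv_pos.2 h.cap_pos
  have h1z : 0 < 1 - zeta := by linarith [h.zeta_lt]
  set cI : ℝ := (Fintype.card I : ℝ) with hcI
  have key : ∀ N : ℕ, pot (Y N 0) p + 2 / 3 * (cap⁻¹ * ∑ j ∈ (range N).filter A,
        ∑ t ∈ range r, pv (wcl cap (D (j * r + t)) (D (j * r + t + 1))) p) ≤
      pot (Y 0 0) p + cap⁻¹ * ∑ j ∈ (range N).filter A, ∑ t ∈ range r,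
        (pv (D (j * r + t)) p - pair (D (j * r + t + 1)) (X j t))
        + (((range N).filter A).card : ℝ) * (cI * Real.log (1 - zeta)⁻¹)
        + (((range N).filter (fun j => act j ∧ ¬ A j)).card : ℝ) * (cI * Real.log zeta⁻¹)
        + (((range N).filter A).card : ℝ) * ((r : ℝ) * (e1 + e2)) := by
    intro N
    induction N with
    | zero => simp
    | succ N ih =>
      rw [Finset.range_add_one, Finset.filter_insert, Finset.filter_insert]
      have hn1 : N ∉ (range N).filter A := by simp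
      have hn2 : N ∉ (range N).filter (fun j => act j ∧ ¬ A j) := by simp
      obtain ⟨hy, hys⟩ := h.good N
      by_cases hAN : A N
      · have ha := hA N hAN
        have hnot : ¬ (act N ∧ ¬ A N) := fun hh => hh.2 hAN
        rw [if_pos hAN, if_neg hnot]
        rw [Finset.sum_insert hn1, Finset.sum_insert hn1, Finset.card_insert_of_notMem hn1]
        obtain ⟨hr1, hr2⟩ := h.inBlock N (h.good N) r le_rfl
        have hb := h.block hp N r le_rfl
        have hm : pot (Y (N + 1) 0) p ≤ pot (Y N r) p + cI * Real.log (1 - zeta)⁻¹ := by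
          refine pot_mono_scale h1z hr1 (fun i e => ?_) p
          rw [h.next_act N ha]
          have := mul_nonneg h.zeta_pos.le (hy i e).le
          show (1 - zeta) * Y N r i e ≤ (1 - zeta) * Y N r i e + zeta * Y N 0 i e
          linarith
        push_cast
        rw [mul_add cap⁻¹, mul_add cap⁻¹]
        nlinarith [ih, hb, hm]
      · rw [if_neg hAN]
        by_cases ha : act N
        · rw [if_pos (⟨ha, hAN⟩ : act N ∧ ¬ A N), Finset.card_insert_of_notMem hn2]
          obtain ⟨hr1, hr2⟩ := h.inBlock N (h.good N) r le_rfl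
          have hm : pot (Y (N + 1) 0) p ≤ pot (Y N 0) p + cI * Real.log zeta⁻¹ := by
            refine pot_mono_scale h.zeta_pos hy (fun i e => ?_) p
            rw [h.next_act N ha]
            have := mul_nonneg h1z.le (hr1 i e).le
            show zeta * Y N 0 i e ≤ (1 - zeta) * Y N r i e + zeta * Y N 0 i e
            linarith
          push_cast
          nlinarith [ih, hm]
        · have hnot : ¬ (act N ∧ ¬ A N) := fun hh => ha hh.1
          rw [if_neg hnot, h.next_not N ha]
          exact ih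
  have hk := key N
  have hpos := pot_nonneg (h.good N).1 (h.good N).2 p
  have h2 : 2 / 3 * (cap⁻¹ * ∑ j ∈ (range N).filter A,
        ∑ t ∈ range r, pv (wcl cap (D (j * r + t)) (D (j * r + t + 1))) p) ≤
      pot (Y 0 0) p + cap⁻¹ * ∑ j ∈ (range N).filter A, ∑ t ∈ range r,
        (pv (D (j * r + t)) p - pair (D (j * r + t + 1)) (X j t))
        + (((range N).filter A).card : ℝ) * (cI * Real.log (1 - zeta)⁻¹)
        + (((range N).filter (fun j => act j ∧ ¬ A j)).card : ℝ) * (cI * Real.log zeta⁻¹)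
        + (((range N).filter A).card : ℝ) * ((r : ℝ) * (e1 + e2)) := by linarith
  have h3 := mul_le_mul_of_nonneg_left h2 h.cap_pos.le
  have e1' : cap * (2 / 3 * (cap⁻¹ * ∑ j ∈ (range N).filter A,
        ∑ t ∈ range r, pv (wcl cap (D (j * r + t)) (D (j * r + t + 1))) p)) =
      2 / 3 * ∑ j ∈ (range N).filter A,
        ∑ t ∈ range r, pv (wcl cap (D (j * r + t)) (D (j * r + t + 1))) p := by
    rw [mul_left_comm cap, ← mul_assoc cap, mul_inv_cancel₀ h.cap_pos.ne', one_mul]
  have e2' : cap * (cap⁻¹ * ∑ j ∈ (range N).filter A, ∑ t ∈ range r,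
        (pv (D (j * r + t)) p - pair (D (j * r + t + 1)) (X j t))) =
      ∑ j ∈ (range N).filter A, ∑ t ∈ range r,
        (pv (D (j * r + t)) p - pair (D (j * r + t + 1)) (X j t)) := by
    rw [← mul_assoc, mul_inv_cancel₀ h.cap_pos.ne', one_mul]
  rw [e1'] at h3
  rw [mul_add, mul_add, mul_add, mul_add, e2'] at h3
  rw [mul_add, mul_add, mul_add]
  linarith

end Run

end Vale.Agent.P315.H330
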