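import Mathlib

/-!
Atoms of the jittered average (P315, note of helper330, item (3)): second moment version.
`I` = the children, `K` = the finite set of jitter values with the uniform law, independent over
the children.  Plain finite sums.
-/

open Finset

namespace Vale.Agent.P315.H330

section Avg

variable {I K : Type*} [Fintype I] [DecidableEq I] [Fintype K]

/-- uniform average over a finite type -/
noncomputable def av {A : Type*} [Fintype A] (F : A → ℝ) : ℝ := (∑ a, F a) / (Fintype.card A : ℝ)

lemma av_const {A : Type*} [Fintype A] [Nonempty A] (c : ℝ) : av (fun _ : A => c) = c := by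
  have h : (0 : ℝ) < (Fintype.card A : ℝ) := by exact_mod_cast Fintype.card_pos
  simp only [av, Finset.sum_const, Finset.card_univ, nsmul_eq_mul]
  field_simp

lemma av_add {A : Type*} [Fintype A] (F G : A → ℝ) : av (fun a => F a + G a) = av F + av G := by
  simp only [av, Finset.sum_add_distrib, add_div]

lemma av_sub {A : Type*} [Fintype A] (F G : A → ℝ) : av (fun a => F a - G a) = av F - av G := by
  simp only [av, Finset.sum_sub_distrib, sub_div]

lemma av_mul {A : Type*} [Fintype A] (c : ℝ) (F : A → ℝ) : av (fun a => c * F a) = c * av F := by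
  simp only [av, ← Finset.mul_sum, mul_div_assoc]

lemma av_mono {A : Type*} [Fintype A] {F G : A → ℝ} (h : ∀ a, F a ≤ G a) : av F ≤ av G :=
  div_le_div_of_nonneg_right (Finset.sum_le_sum fun a _ => h a) (by positivity)

lemma av_nonneg {A : Type*} [Fintype A] {F : A → ℝ} (h : ∀ a, 0 ≤ F a) : 0 ≤ av F :=
  div_nonneg (Finset.sum_nonneg fun a _ => h a) (by positivity)

lemma av_sum {A : Type*} [Fintype A] {B : Type*} (s : Finset B) (F : B → A → ℝ) :
    av (fun a => ∑ b ∈ s, F b a) = ∑ b ∈ s, av (F b) := by
  simp only [av]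
  rw [Finset.sum_comm, Finset.sum_div]

lemma av_prod [Nonempty K] (h : I → K → ℝ) :
    av (fun xi : I → K => ∏ k, h k (xi k)) = ∏ k, av (h k) := by
  simp only [av]
  rw [Finset.prod_div_distrib, Finset.prod_univ_sum, Fintype.piFinset_univ]
  simp

lemma av_coord [Nonempty K] (g : K → ℝ) (i : I) :
    av (fun xi : I → K => g (xi i)) = av g := by
  have h := av_prod (I := I) (K := K) (fun k x => if k = i then g x else 1)
  have e1 : ∀ xi : I → K, (∏ k, if k = i then g (xi k) else (1 : ℝ)) = g (xi i) := by
    intro xi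
    rw [Finset.prod_ite_eq' Finset.univ i (fun k => g (xi k))]
    simp
  simp only [e1] at h
  rw [h]
  rw [Finset.prod_eq_single i]
  · simp
  · intro k _ hk
    simp only [hk, if_false]
    exact av_const 1
  · intro h; exact absurd (Finset.mem_univ i) h

lemma av_coord_mul [Nonempty K] (g g' : K → ℝ) {i j : I} (hij : i ≠ j) :
    av (fun xi : I → K => g (xi i) * g' (xi j)) = av g * av g' := by
  have h := av_prod (I := I) (K := K)
    (fun k x => (if k = i then g x else 1) * (if k = j then g' x else 1))
  have e1 : ∀ xi : I → K, (∏ k, (if k = i then g (xi k) else (1 : ℝ)) *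
      (if k = j then g' (xi k) else 1)) = g (xi i) * g' (xi j) := by
    intro xi
    rw [Finset.prod_mul_distrib, Finset.prod_ite_eq' Finset.univ i (fun k => g (xi k)),
      Finset.prod_ite_eq' Finset.univ j (fun k => g' (xi k))]
    simp
  simp only [e1] at h
  rw [h]
  have e2 : ∀ k, av (fun x : K => (if k = i then g x else 1) * (if k = j then g' x else 1)) =
      (if k = i then av g else 1) * (if k = j then av g' else 1) := by
    intro k
    by_cases h1 : k = i
    · have h2 : ¬ k = j := fun h => hij (h1.symm.trans h)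
      simp [h1, hij]
    · by_cases h2 : k = j
      · simp only [if_neg h1, if_pos h2, one_mul]
      · simp only [if_neg h1, if_neg h2, mul_one]
        exact av_const 1
  simp only [e2]
  rw [Finset.prod_mul_distrib, Finset.prod_ite_eq' Finset.univ i (fun _ => av g),
    Finset.prod_ite_eq' Finset.univ j (fun _ => av g')]
  simp

/-- second moment of a sum of independent centred terms -/
lemma av_sq_sum [Nonempty K] (g : I → K → ℝ) (hg : ∀ i, av (g i) = 0) :
    av (fun xi : I → K => (∑ i, g i (xi i)) ^ 2) = ∑ i, av (fun x => (g i x) ^ 2) := by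
  have e1 : ∀ xi : I → K, (∑ i, g i (xi i)) ^ 2 = ∑ i, ∑ j, g i (xi i) * g j (xi j) := by
    intro xi
    rw [sq, Finset.sum_mul_sum]
  simp only [e1]
  rw [av_sum]
  refine Finset.sum_congr rfl fun i _ => ?_
  rw [av_sum, Finset.sum_eq_single i]
  · have : (fun xi : I → K => g i (xi i) * g i (xi i)) =
        fun xi : I → K => (fun x => (g i x) ^ 2) (xi i) := by
      funext xi; ring
    rw [this]
    exact av_coord (fun x => (g i x) ^ 2) i
  · intro j _ hj
    rw [av_coord_mul (g i) (g j) (Ne.symm hj), hg i, zero_mul]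
  · intro h; exact absurd (Finset.mem_univ i) h

end Avg

section Main

variable {I K : Type*} [Fintype I] [DecidableEq I] [Nonempty I] [Fintype K] [Nonempty K]

/-- One index: `A = avg_i h_i (xi_i)` with independent jitters, `0 <= h_i <= 1`,
`E h_i <= cap / 8`.  Then `E [A ; A >= cap / 2] <= 32 / (9 cap |I|) E A`. -/
theorem atom_one {h : I → K → ℝ} (h0 : ∀ i x, 0 ≤ h i x) (h1 : ∀ i x, h i x ≤ 1) {cap : ℝ}
    (hcap : 0 < cap) (hm : ∀ i, av (h i) ≤ cap / 8) :
    av (fun xi : I → K => if cap / 2 ≤ av (fun i => h i (xi i)) then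
        av (fun i => h i (xi i)) else 0) ≤
      32 / (9 * cap * (Fintype.card I : ℝ)) * av (fun i => av (h i)) := by
  set n : ℝ := (Fintype.card I : ℝ) with hn
  have hnpos : 0 < n := by rw [hn]; exact_mod_cast Fintype.card_pos
  set a : ℝ := av (fun i => av (h i)) with ha
  have ha0 : 0 ≤ a := av_nonneg fun i => av_nonneg (h0 i)
  have ha1 : a ≤ cap / 8 := by
    calc a ≤ av (fun _ : I => cap / 8) := av_mono hm
      _ = cap / 8 := av_const _
  -- pointwise
  have hpt : ∀ xi : I → K, (if cap / 2 ≤ av (fun i => h i (xi i)) then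
        av (fun i => h i (xi i)) else 0) ≤
      32 / (9 * cap) * (av (fun i => h i (xi i)) - a) ^ 2 := by
    intro xi
    set A : ℝ := av (fun i => h i (xi i)) with hA
    split_ifs with hc
    · have hd : 3 * cap / 8 ≤ A - a := by linarith
      have hAa : A ≤ 4 / 3 * (A - a) := by linarith
      have hpos : 0 ≤ A - a := by linarith [hcap]
      have h2 : (3 * cap / 8) * (A - a) ≤ (A - a) ^ 2 := by nlinarith
      rw [div_mul_eq_mul_div, le_div_iff₀ (by positivity)]
      nlinarith
    · positivity
  have hsum : av (fun xi : I → K => (av (fun i => h i (xi i)) - a) ^ 2) ≤ a / n := by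
    have e1 : ∀ xi : I → K, (av (fun i => h i (xi i)) - a) ^ 2 =
        (1 / n ^ 2) * (∑ i, (h i (xi i) - av (h i))) ^ 2 := by
      intro xi
      have : av (fun i => h i (xi i)) - a = (∑ i, (h i (xi i) - av (h i))) / n := by
        rw [ha, ← av_sub]
        rfl
      rw [this]
      field_simp
    simp only [e1]
    rw [av_mul, av_sq_sum (fun i x => h i x - av (h i))]
    · have e2 : ∀ i, av (fun x => (h i x - av (h i)) ^ 2) ≤ av (h i) := by
        intro i
        have e3 : ∀ x, (h i x - av (h i)) ^ 2 =
            (h i x) ^ 2 - (2 * av (h i)) * h i x + (av (h i)) ^ 2 := fun x => by ring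
        simp only [e3]
        rw [av_add, av_sub, av_mul, av_const]
        have e4 : av (fun x => (h i x) ^ 2) ≤ av (h i) := by
          refine av_mono fun x => ?_
          nlinarith [h0 i x, h1 i x]
        nlinarith [sq_nonneg (av (h i))]
      have e5 : ∑ i, av (fun x => (h i x - av (h i)) ^ 2) ≤ ∑ i, av (h i) :=
        Finset.sum_le_sum fun i _ => e2 i
      have e6 : ∑ i, av (h i) = a * n := by
        have : a = (∑ i, av (h i)) / n := rfl
        rw [this]
        field_simp
      rw [e6] at e5
      calc 1 / n ^ 2 * ∑ i, av (fun x => (h i x - av (h i)) ^ 2)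
          ≤ 1 / n ^ 2 * (a * n) := mul_le_mul_of_nonneg_left e5 (by positivity)
        _ = a / n := by field_simp
    · intro i
      rw [av_sub, av_const, sub_self]
  calc av (fun xi : I → K => if cap / 2 ≤ av (fun i => h i (xi i)) then
        av (fun i => h i (xi i)) else 0)
      ≤ av (fun xi : I → K => 32 / (9 * cap) * (av (fun i => h i (xi i)) - a) ^ 2) :=
        av_mono hpt
    _ = 32 / (9 * cap) * av (fun xi : I → K => (av (fun i => h i (xi i)) - a) ^ 2) := av_mul _ _
    _ ≤ 32 / (9 * cap) * (a / n) := mul_le_mul_of_nonneg_left hsum (by positivity)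
    _ = 32 / (9 * cap * n) * a := by field_simp

/-- **Atoms**: `f i` is the mass function (drop at each own index) of child `i`, of total mass at
most one, read at index `b - xi i` with independent uniform jitters `xi i` in `{0..J}`.
If `8 <= cap (J+1)`, the total mass of the large values of the average is small. -/
theorem atoms (J : ℕ) {f : I → ℤ → ℝ} (f0 : ∀ i b, 0 ≤ f i b)
    (f1 : ∀ i, ∀ T : Finset ℤ, ∑ b ∈ T, f i b ≤ 1) {cap : ℝ} (hcap : 0 < cap)
    (hJ : 8 ≤ cap * ((J : ℝ) + 1)) (B : Finset ℤ) :
    av (fun xi : I → Fin (J + 1) => ∑ b ∈ B,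
      (if cap / 2 ≤ av (fun i => f i (b - (xi i : ℕ))) then
        av (fun i => f i (b - (xi i : ℕ))) else 0)) ≤
      32 / (9 * cap * (Fintype.card I : ℝ)) := by
  have hnpos : (0 : ℝ) < (Fintype.card I : ℝ) := by exact_mod_cast Fintype.card_pos
  have hinj : ∀ b : ℤ, Set.InjOn (fun x : Fin (J + 1) => b - ((x : ℕ) : ℤ))
      (Finset.univ : Finset (Fin (J + 1))) := by
    intro b x _ y _ h
    have h' : ((x : ℕ) : ℤ) = ((y : ℕ) : ℤ) := by
      have : b - ((x : ℕ) : ℤ) = b - ((y : ℕ) : ℤ) := h
      linarith
    exact Fin.ext (by exact_mod_cast h')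
  have hm : ∀ (b : ℤ) (i : I), av (fun x : Fin (J + 1) => f i (b - ((x : ℕ) : ℤ))) ≤ cap / 8 := by
    intro b i
    have h1 : ∑ x : Fin (J + 1), f i (b - ((x : ℕ) : ℤ)) ≤ 1 := by
      rw [← Finset.sum_image (f := fun c => f i c) (hinj b)]
      exact f1 i _
    have hJ' : (0 : ℝ) < (J : ℝ) + 1 := by positivity
    simp only [av, Fintype.card_fin]
    push_cast
    rw [div_le_iff₀ hJ']
    nlinarith
  have hle1 : ∀ i b, f i b ≤ 1 := by
    intro i b
    have := f1 i {b}
    simpa using this
  rw [av_sum]
  calc ∑ b ∈ B, av (fun xi : I → Fin (J + 1) =>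
        (if cap / 2 ≤ av (fun i => f i (b - (xi i : ℕ))) then
          av (fun i => f i (b - (xi i : ℕ))) else 0))
      ≤ ∑ b ∈ B, 32 / (9 * cap * (Fintype.card I : ℝ)) *
          av (fun i => av (fun x : Fin (J + 1) => f i (b - ((x : ℕ) : ℤ)))) := by
        refine Finset.sum_le_sum fun b _ => ?_
        exact atom_one (K := Fin (J + 1)) (h := fun i x => f i (b - ((x : ℕ) : ℤ)))
          (fun i x => f0 _ _) (fun i x => hle1 _ _) hcap (hm b)
    _ = 32 / (9 * cap * (Fintype.card I : ℝ)) *
          ∑ b ∈ B, av (fun i => av (fun x : Fin (J + 1) => f i (b - ((x : ℕ) : ℤ)))) := by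
        rw [Finset.mul_sum]
    _ ≤ 32 / (9 * cap * (Fintype.card I : ℝ)) * 1 := by
        refine mul_le_mul_of_nonneg_left ?_ (by positivity)
        rw [← av_sum]
        have : ∀ i, (∑ b ∈ B, av (fun x : Fin (J + 1) => f i (b - ((x : ℕ) : ℤ)))) ≤ 1 := by
          intro i
          rw [← av_sum]
          calc av (fun x : Fin (J + 1) => ∑ b ∈ B, f i (b - ((x : ℕ) : ℤ)))
              ≤ av (fun _ : Fin (J + 1) => (1 : ℝ)) := by
                refine av_mono fun x => ?_
                have hi : Set.InjOn (fun b : ℤ => b - ((x : ℕ) : ℤ)) B := by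
                  intro b _ c _ h
                  have h' : b - ((x : ℕ) : ℤ) = c - ((x : ℕ) : ℤ) := h
                  linarith
                rw [← Finset.sum_image (f := fun c => f i c) hi]
                exact f1 i _
            _ = 1 := av_const _
        calc av (fun i => ∑ b ∈ B, av (fun x : Fin (J + 1) => f i (b - ((x : ℕ) : ℤ))))
            ≤ av (fun _ : I => (1 : ℝ)) := av_mono this
          _ = 1 := av_const _
    _ = _ := by ring

end Main

end Vale.Agent.P315.H330
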