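import Vale.Agent.P315.H330.H3b

/-!
Part B of the P315 blueprint, weighted form: edge weights `a`, caps `cap * a`, unnormalised
states, look-ahead values `D'` (frozen edges allowed).  Plain finite sums.
-/

set_option linter.unusedSectionVars false

open Finset

namespace Vale.Agent.P315.H330.W

open Vale.Agent.P315.H330

variable {I E : Type*} [Fintype I] [Fintype E]

/-- weight of a path -/
noncomputable def wt (a : I → E → ℝ) (p : I → E) : ℝ := ∑ i, a i (p i)

/-- weighted mass of an array -/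
noncomputable def mass (a y : I → E → ℝ) : ℝ := ∑ i, ∑ e, a i e * y i e

/-- weighted potential of a path: `sum a (x log (x/y) - x + y)` at the indicator of the path -/
noncomputable def potW (a y : I → E → ℝ) (p : I → E) : ℝ :=
  ∑ i, a i (p i) * (-Real.log (y i (p i)) - 1) + mass a y

/-- Solver specification (weighted). -/
structure SolvedW (PP : Set (I → E)) (a : I → E → ℝ) (cap : ℝ) (D y xh q : I → E → ℝ)
    (e1 e2 : ℝ) : Prop where
  xh_nonneg : ∀ i e, 0 ≤ xh i e
  q_pos : ∀ i e, 0 < q i e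
  q_le : ∃ r : I → E → ℝ, (∀ i e, 0 ≤ r i e) ∧ mass a r ≤ e2 ∧ ∀ i e, q i e ≤ xh i e + r i e
  opt : ∀ p ∈ PP, potW a q p + cap⁻¹ * pair D xh ≤ potW a y p + cap⁻¹ * pv D p + e1

/-- clipped decrease -/
noncomputable def wclW (cap : ℝ) (a D D' : I → E → ℝ) : I → E → ℝ :=
  fun i e => min (D i e - D' i e) (cap * a i e)

/-- the (unnormalised) state after the round -/
noncomputable def updW (cap : ℝ) (a D D' q : I → E → ℝ) : I → E → ℝ :=
  fun i e => q i e * (1 + (cap * a i e)⁻¹ * wclW cap a D D' i e)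

section Round

variable {PP : Set (I → E)} {a D D' y xh q : I → E → ℝ} {cap e1 e2 : ℝ}

lemma wclW_nonneg (hcap : 0 < cap) (ha : ∀ i e, 0 < a i e) (hD : ∀ i e, D' i e ≤ D i e)
    (i : I) (e : E) : 0 ≤ wclW cap a D D' i e :=
  le_min (sub_nonneg.2 (hD i e)) (mul_pos hcap (ha i e)).le

lemma s_nonneg (hcap : 0 < cap) (ha : ∀ i e, 0 < a i e) (hD : ∀ i e, D' i e ≤ D i e)
    (i : I) (e : E) : 0 ≤ (cap * a i e)⁻¹ * wclW cap a D D' i e :=
  mul_nonneg (inv_nonneg.2 (mul_pos hcap (ha i e)).le) (wclW_nonneg hcap ha hD i e)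

lemma s_le_one (hcap : 0 < cap) (ha : ∀ i e, 0 < a i e) (i : I) (e : E) :
    (cap * a i e)⁻¹ * wclW cap a D D' i e ≤ 1 := by
  have hc := mul_pos hcap (ha i e)
  have h := mul_le_mul_of_nonneg_left (min_le_right (D i e - D' i e) (cap * a i e))
    (inv_nonneg.2 hc.le)
  rwa [inv_mul_cancel₀ hc.ne'] at h

lemma a_mul_s (hcap : 0 < cap) (ha : ∀ i e, 0 < a i e) (i : I) (e : E) :
    a i e * ((cap * a i e)⁻¹ * wclW cap a D D' i e) = cap⁻¹ * wclW cap a D D' i e := by
  have h1 := (ha i e).ne'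
  have h2 := hcap.ne'
  field_simp

lemma updW_pos (hcap : 0 < cap) (ha : ∀ i e, 0 < a i e) (hD : ∀ i e, D' i e ≤ D i e)
    (hq : ∀ i e, 0 < q i e) (i : I) (e : E) : 0 < updW cap a D D' q i e := by
  have := s_nonneg hcap ha hD i e
  exact mul_pos (hq i e) (by linarith)

/-- One round (weighted). -/
theorem roundW (hcap : 0 < cap) (ha : ∀ i e, 0 < a i e) (hD : ∀ i e, D' i e ≤ D i e)
    (hS : SolvedW PP a cap D y xh q e1 e2) {p : I → E} (hp : p ∈ PP) :
    potW a (updW cap a D D' q) p + 2 / 3 * (cap⁻¹ * pv (wclW cap a D D') p) ≤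
      potW a y p + cap⁻¹ * (pv D p - pair D' xh) + e1 + e2 := by
  have hci : 0 < cap⁻¹ := inv_pos.2 hcap
  obtain ⟨r, hr0, hr1, hqr⟩ := hS.q_le
  have h1 := hS.opt p hp
  have hlog : ∑ i, a i (p i) * (-Real.log (updW cap a D D' q i (p i)) - 1) +
      2 / 3 * (cap⁻¹ * pv (wclW cap a D D') p) ≤
      ∑ i, a i (p i) * (-Real.log (q i (p i)) - 1) := by
    simp only [pv, Finset.mul_sum, ← Finset.sum_add_distrib]
    refine Finset.sum_le_sum fun i _ => ?_
    set s : ℝ := (cap * a i (p i))⁻¹ * wclW cap a D D' i (p i) with hs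
    have hs0 : 0 ≤ s := s_nonneg hcap ha hD i (p i)
    have hs1 : s ≤ 1 := s_le_one hcap ha i (p i)
    have hf : (0 : ℝ) < 1 + s := by linarith
    have e1' : Real.log (updW cap a D D' q i (p i)) = Real.log (q i (p i)) + Real.log (1 + s) := by
      rw [show updW cap a D D' q i (p i) = q i (p i) * (1 + s) from rfl,
        Real.log_mul (hS.q_pos i (p i)).ne' hf.ne']
    have h := Real.le_log_one_add_of_nonneg hs0
    have h2 : 2 / 3 * s ≤ 2 * s / (s + 2) := by
      rw [le_div_iff₀ (by linarith)]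
      nlinarith
    have h3 : 2 / 3 * s ≤ Real.log (1 + s) := h2.trans h
    have h4 := mul_le_mul_of_nonneg_left h3 (ha i (p i)).le
    have h5 := a_mul_s (D := D) (D' := D') hcap ha i (p i)
    rw [← hs] at h5
    rw [e1', ← h5]
    nlinarith
  have hmass : mass a (updW cap a D D' q) ≤ mass a q + cap⁻¹ * (pair D xh - pair D' xh) + e2 := by
    have hz1 : mass a (updW cap a D D' q) = mass a q +
        ∑ i, ∑ e, q i e * (cap⁻¹ * wclW cap a D D' i e) := by
      simp only [mass, ← Finset.sum_add_distrib]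
      refine Finset.sum_congr rfl fun i _ => Finset.sum_congr rfl fun e _ => ?_
      rw [← a_mul_s (D := D) (D' := D') hcap ha i e]
      simp only [updW]
      ring
    have hz2 : ∑ i, ∑ e, q i e * (cap⁻¹ * wclW cap a D D' i e) ≤
        ∑ i, ∑ e, (cap⁻¹ * (wclW cap a D D' i e * xh i e) + a i e * r i e) := by
      refine Finset.sum_le_sum fun i _ => Finset.sum_le_sum fun e _ => ?_
      have hw0 := mul_nonneg hci.le (wclW_nonneg hcap ha hD i e)
      have hw1 : cap⁻¹ * wclW cap a D D' i e ≤ a i e := by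
        rw [← a_mul_s (D := D) (D' := D') hcap ha i e]
        have := mul_le_mul_of_nonneg_left (s_le_one (D := D) (D' := D') hcap ha i e) (ha i e).le
        linarith
      have h1 := mul_le_mul_of_nonneg_right (hqr i e) hw0
      have h2 := mul_le_mul_of_nonneg_left hw1 (hr0 i e)
      nlinarith
    have hz3 : ∑ i, ∑ e, (cap⁻¹ * (wclW cap a D D' i e * xh i e) + a i e * r i e) =
        cap⁻¹ * pair (wclW cap a D D') xh + mass a r := by
      simp only [pair, mass, Finset.mul_sum, Finset.sum_add_distrib]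
    have hz4 : pair (wclW cap a D D') xh ≤ pair D xh - pair D' xh := by
      rw [← pair_sub_left]
      exact pair_le_pair hS.xh_nonneg fun i e => min_le_left _ _
    have hz5 := mul_le_mul_of_nonneg_left hz4 hci.le
    linarith
  have hexp : cap⁻¹ * (pv D p - pair D' xh) = cap⁻¹ * pv D p - cap⁻¹ * pair D' xh := by ring
  have hexp2 : cap⁻¹ * (pair D xh - pair D' xh) =
      cap⁻¹ * pair D xh - cap⁻¹ * pair D' xh := by ring
  rw [hexp2] at hmass
  simp only [potW] at h1 ⊢
  linarith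

end Round

lemma potW_nonneg {a y : I → E → ℝ} (ha : ∀ i e, 0 < a i e) (hy : ∀ i e, 0 < y i e)
    (p : I → E) : 0 ≤ potW a y p := by
  have h1 : ∑ i, a i (p i) * y i (p i) ≤ mass a y := by
    refine Finset.sum_le_sum fun i _ => ?_
    exact Finset.single_le_sum (f := fun e => a i e * y i e)
      (fun e _ => (mul_pos (ha i e) (hy i e)).le) (Finset.mem_univ (p i))
  have h2 : 0 ≤ ∑ i, (a i (p i) * (-Real.log (y i (p i)) - 1) + a i (p i) * y i (p i)) := by
    refine Finset.sum_nonneg fun i _ => ?_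
    have := Real.log_le_sub_one_of_pos (hy i (p i))
    have h3 := mul_nonneg (ha i (p i)).le (by linarith : 0 ≤ y i (p i) - 1 - Real.log (y i (p i)))
    nlinarith
  rw [Finset.sum_add_distrib] at h2
  simp only [potW]
  linarith

lemma potW_mono_scale {a y z : I → E → ℝ} {c : ℝ} (ha : ∀ i e, 0 < a i e) (hc : 0 < c)
    (hy : ∀ i e, 0 < y i e) (h : ∀ i e, c * y i e ≤ z i e) (p : I → E) :
    potW a z p ≤ potW a y p + wt a p * Real.log c⁻¹ + (mass a z - mass a y) := by
  have h1 : ∑ i, a i (p i) * (-Real.log (z i (p i)) - 1) ≤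
      ∑ i, a i (p i) * (-Real.log (y i (p i)) - 1) + wt a p * Real.log c⁻¹ := by
    simp only [wt, Finset.sum_mul, ← Finset.sum_add_distrib]
    refine Finset.sum_le_sum fun i _ => ?_
    have h2 := Real.log_le_log (mul_pos hc (hy i (p i))) (h i (p i))
    rw [Real.log_mul hc.ne' (hy i (p i)).ne'] at h2
    rw [Real.log_inv]
    have h3 := mul_le_mul_of_nonneg_left h2 (ha i (p i)).le
    nlinarith
  simp only [potW]
  linarith

/-- A run of the weighted machine. Only `D' t ≤ D t` is needed between the two value arrays. -/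
structure RunW (PP : Set (I → E)) (a : I → E → ℝ) (cap zeta e1 e2 Bm : ℝ) (r : ℕ)
    (act : ℕ → Prop) (D D' : ℕ → I → E → ℝ) (Y X Q : ℕ → ℕ → I → E → ℝ) : Prop where
  cap_pos : 0 < cap
  a_pos : ∀ i e, 0 < a i e
  zeta_pos : 0 < zeta
  zeta_lt : zeta < 1
  anti : ∀ t i e, D' t i e ≤ D t i e
  solved : ∀ j k, k < r → SolvedW PP a cap (D (j * r + k)) (Y j k) (X j k) (Q j k) e1 e2
  step : ∀ j k, k < r → Y j (k + 1) = updW cap a (D (j * r + k)) (D' (j * r + k)) (Q j k)
  start_pos : ∀ i e, 0 < Y 0 0 i e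
  mass_le : ∀ j k, k ≤ r → mass a (Y j k) ≤ Bm
  next_act : ∀ j, act j → Y (j + 1) 0 = fun i e => (1 - zeta) * Y j r i e + zeta * Y j 0 i e
  next_not : ∀ j, ¬ act j → Y (j + 1) 0 = Y j 0

namespace RunW

variable {PP : Set (I → E)} {a : I → E → ℝ} {cap zeta e1 e2 Bm : ℝ} {r : ℕ} {act : ℕ → Prop}
  {D D' : ℕ → I → E → ℝ} {Y X Q : ℕ → ℕ → I → E → ℝ}

lemma inBlock (h : RunW PP a cap zeta e1 e2 Bm r act D D' Y X Q) (j : ℕ)
    (h0 : ∀ i e, 0 < Y j 0 i e) : ∀ k, k ≤ r → ∀ i e, 0 < Y j k i e := by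
  intro k
  induction k with
  | zero => intro _; exact h0
  | succ k ih =>
    intro hk
    rw [h.step j k (by omega)]
    exact fun i e => updW_pos h.cap_pos h.a_pos (h.anti _) (h.solved j k (by omega)).q_pos i e

lemma good (h : RunW PP a cap zeta e1 e2 Bm r act D D' Y X Q) :
    ∀ j, ∀ i e, 0 < Y j 0 i e := by
  intro j
  induction j with
  | zero => exact h.start_pos
  | succ j ih =>
    by_cases ha : act j
    · rw [h.next_act j ha]
      have hr := h.inBlock j ih r le_rfl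
      have h1 : 0 < 1 - zeta := by linarith [h.zeta_lt]
      exact fun i e => add_pos (mul_pos h1 (hr i e)) (mul_pos h.zeta_pos (ih i e))
    · rw [h.next_not j ha]
      exact ih

/-- inside one block -/
lemma block (h : RunW PP a cap zeta e1 e2 Bm r act D D' Y X Q) {p : I → E} (hp : p ∈ PP)
    (j : ℕ) : ∀ k, k ≤ r → potW a (Y j k) p
        + 2 / 3 * (cap⁻¹ * ∑ t ∈ range k, pv (wclW cap a (D (j * r + t)) (D' (j * r + t))) p) ≤
      potW a (Y j 0) p + cap⁻¹ * ∑ t ∈ range k, (pv (D (j * r + t)) p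
        - pair (D' (j * r + t)) (X j t)) + (k : ℝ) * (e1 + e2) := by
  intro k
  induction k with
  | zero => intro _; simp
  | succ k ih =>
    intro hk
    have h1 := ih (by omega)
    have hk' : k < r := by omega
    have h2 := roundW h.cap_pos h.a_pos (h.anti (j * r + k)) (h.solved j k hk') hp
    rw [← h.step j k hk'] at h2
    rw [Finset.sum_range_succ, Finset.sum_range_succ]
    push_cast
    rw [mul_add, mul_add, mul_add]
    linarith

/-- **Weighted online lemma with block restart.** -/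
theorem regret [DecidablePred act] (h : RunW PP a cap zeta e1 e2 Bm r act D D' Y X Q)
    {p : I → E} (hp : p ∈ PP) (N : ℕ) (A : ℕ → Prop) [DecidablePred A]
    (hA : ∀ j, A j → act j) :
    2 / 3 * ∑ j ∈ (range N).filter A,
        ∑ t ∈ range r, pv (wclW cap a (D (j * r + t)) (D' (j * r + t))) p ≤
      ∑ j ∈ (range N).filter A, ∑ t ∈ range r,
        (pv (D (j * r + t)) p - pair (D' (j * r + t)) (X j t))
      + cap * (potW a (Y 0 0) p
        + (((range N).filter A).card : ℝ) * (wt a p * Real.log (1 - zeta)⁻¹ + zeta * Bm)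
        + (((range N).filter (fun j => act j ∧ ¬ A j)).card : ℝ) *
            (wt a p * Real.log zeta⁻¹ + Bm)
        + (((range N).filter A).card : ℝ) * ((r : ℝ) * (e1 + e2))) := by
  have hci : 0 < cap⁻¹ := inv_pos.2 h.cap_pos
  have h1z : 0 < 1 - zeta := by linarith [h.zeta_lt]
  have hmixmass : ∀ j, mass a (fun i e => (1 - zeta) * Y j r i e + zeta * Y j 0 i e) =
      (1 - zeta) * mass a (Y j r) + zeta * mass a (Y j 0) := by
    intro j
    simp only [mass, Finset.mul_sum, ← Finset.sum_add_distrib]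
    refine Finset.sum_congr rfl fun i _ => Finset.sum_congr rfl fun e _ => ?_
    ring
  have hmnn : ∀ j k, k ≤ r → 0 ≤ mass a (Y j k) := by
    intro j k hk
    have := h.inBlock j (h.good j) k hk
    exact Finset.sum_nonneg fun i _ => Finset.sum_nonneg fun e _ =>
      (mul_pos (h.a_pos i e) (this i e)).le
  have key : ∀ N : ℕ, potW a (Y N 0) p + 2 / 3 * (cap⁻¹ * ∑ j ∈ (range N).filter A,
        ∑ t ∈ range r, pv (wclW cap a (D (j * r + t)) (D' (j * r + t))) p) ≤
      potW a (Y 0 0) p + cap⁻¹ * ∑ j ∈ (range N).filter A, ∑ t ∈ range r,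
        (pv (D (j * r + t)) p - pair (D' (j * r + t)) (X j t))
        + (((range N).filter A).card : ℝ) * (wt a p * Real.log (1 - zeta)⁻¹ + zeta * Bm)
        + (((range N).filter (fun j => act j ∧ ¬ A j)).card : ℝ) *
            (wt a p * Real.log zeta⁻¹ + Bm)
        + (((range N).filter A).card : ℝ) * ((r : ℝ) * (e1 + e2)) := by
    intro N
    induction N with
    | zero => simp
    | succ N ih =>
      rw [Finset.range_add_one, Finset.filter_insert, Finset.filter_insert]
      have hn1 : N ∉ (range N).filter A := by simp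
      have hn2 : N ∉ (range N).filter (fun j => act j ∧ ¬ A j) := by simp
      have hy := h.good N
      have hr1 := h.inBlock N (h.good N) r le_rfl
      have hme := h.mass_le N r le_rfl
      have hms := h.mass_le N 0 (Nat.zero_le r)
      have hne := hmnn N r le_rfl
      have hns := hmnn N 0 (Nat.zero_le r)
      by_cases hAN : A N
      · have ha := hA N hAN
        have hnot : ¬ (act N ∧ ¬ A N) := fun hh => hh.2 hAN
        rw [if_pos hAN, if_neg hnot]
        rw [Finset.sum_insert hn1, Finset.sum_insert hn1, Finset.card_insert_of_notMem hn1]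
        have hb := h.block hp N r le_rfl
        have hm : potW a (Y (N + 1) 0) p ≤ potW a (Y N r) p
            + (wt a p * Real.log (1 - zeta)⁻¹ + zeta * Bm) := by
          have h3 := potW_mono_scale (z := Y (N + 1) 0) h.a_pos h1z hr1 (fun i e => by
            rw [h.next_act N ha]
            have := mul_nonneg h.zeta_pos.le (hy i e).le
            show (1 - zeta) * Y N r i e ≤ (1 - zeta) * Y N r i e + zeta * Y N 0 i e
            linarith) p
          rw [h.next_act N ha] at h3 ⊢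
          rw [hmixmass N] at h3
          nlinarith [h.zeta_pos, h.zeta_lt]
        push_cast
        rw [mul_add cap⁻¹, mul_add cap⁻¹]
        linarith [ih, hb, hm]
      · rw [if_neg hAN]
        by_cases ha : act N
        · rw [if_pos (⟨ha, hAN⟩ : act N ∧ ¬ A N), Finset.card_insert_of_notMem hn2]
          have hm : potW a (Y (N + 1) 0) p ≤ potW a (Y N 0) p
              + (wt a p * Real.log zeta⁻¹ + Bm) := by
            have h3 := potW_mono_scale (z := Y (N + 1) 0) h.a_pos h.zeta_pos hy (fun i e => by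
              rw [h.next_act N ha]
              have := mul_nonneg h1z.le (hr1 i e).le
              show zeta * Y N 0 i e ≤ (1 - zeta) * Y N r i e + zeta * Y N 0 i e
              linarith) p
            rw [h.next_act N ha] at h3 ⊢
            rw [hmixmass N] at h3
            nlinarith [h.zeta_pos, h.zeta_lt]
          push_cast
          linarith [ih, hm]
        · have hnot : ¬ (act N ∧ ¬ A N) := fun hh => ha hh.1
          rw [if_neg hnot, h.next_not N ha]
          exact ih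
  have hk := key N
  have hpos := potW_nonneg h.a_pos (h.good N) p
  have h2 : 2 / 3 * (cap⁻¹ * ∑ j ∈ (range N).filter A,
        ∑ t ∈ range r, pv (wclW cap a (D (j * r + t)) (D' (j * r + t))) p) ≤
      potW a (Y 0 0) p + cap⁻¹ * ∑ j ∈ (range N).filter A, ∑ t ∈ range r,
        (pv (D (j * r + t)) p - pair (D' (j * r + t)) (X j t))
        + (((range N).filter A).card : ℝ) * (wt a p * Real.log (1 - zeta)⁻¹ + zeta * Bm)
        + (((range N).filter (fun j => act j ∧ ¬ A j)).card : ℝ) *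
            (wt a p * Real.log zeta⁻¹ + Bm)
        + (((range N).filter A).card : ℝ) * ((r : ℝ) * (e1 + e2)) := by linarith
  have h3 := mul_le_mul_of_nonneg_left h2 h.cap_pos.le
  have e1' : cap * (2 / 3 * (cap⁻¹ * ∑ j ∈ (range N).filter A,
        ∑ t ∈ range r, pv (wclW cap a (D (j * r + t)) (D' (j * r + t))) p)) =
      2 / 3 * ∑ j ∈ (range N).filter A,
        ∑ t ∈ range r, pv (wclW cap a (D (j * r + t)) (D' (j * r + t))) p := by
    rw [mul_left_comm cap, ← mul_assoc cap, mul_inv_cancel₀ h.cap_pos.ne', one_mul]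
  have e2' : cap * (cap⁻¹ * ∑ j ∈ (range N).filter A, ∑ t ∈ range r,
        (pv (D (j * r + t)) p - pair (D' (j * r + t)) (X j t))) =
      ∑ j ∈ (range N).filter A, ∑ t ∈ range r,
        (pv (D (j * r + t)) p - pair (D' (j * r + t)) (X j t)) := by
    rw [← mul_assoc, mul_inv_cancel₀ h.cap_pos.ne', one_mul]
  rw [e1'] at h3
  rw [mul_add, mul_add, mul_add, mul_add, e2'] at h3
  rw [mul_add, mul_add, mul_add]
  linarith

end RunW

/-- windows of the block, good rows with block drop at most `cap * a` -/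
noncomputable def lhsW (a : I → E → ℝ) (D : ℤ → I → E → ℝ) (p : I → E) (gd : I → Prop)
    [DecidablePred gd] (cap : ℝ) (h len : ℕ) (b0 : ℤ) : ℝ :=
  ∑ u ∈ (range len).filter (fun u => u + h ≤ len), ∑ i,
    (if gd i ∧ D b0 i (p i) - D (b0 + len) i (p i) ≤ cap * a i (p i) then
      D (b0 + u) i (p i) - D (b0 + u + h) i (p i) else 0)

lemma lhsW_le {a : I → E → ℝ} {D D' : ℤ → I → E → ℝ} (ha : ∀ i e, 0 < a i e)
    (hD : ∀ b i e, D (b + 1) i e ≤ D b i e) (hD' : ∀ b i e, D' b i e ≤ D b i e)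
    (p : I → E) (gd : I → Prop) [DecidablePred gd] {cap : ℝ} (hcap : 0 < cap) (h r : ℕ)
    (hgd : ∀ i, gd i → ∀ b : ℤ, D' b i (p i) ≤ D (b + h) i (p i)) (b0 : ℤ) :
    lhsW a D p gd cap h (r * h) b0 ≤ ∑ k ∈ range r, ∑ ph ∈ range h,
      pv (wclW cap a (D (b0 + ((k * h + ph : ℕ) : ℤ))) (D' (b0 + ((k * h + ph : ℕ) : ℤ)))) p := by
  rw [← sum_range_mul' (fun u => pv (wclW cap a (D (b0 + (u : ℤ))) (D' (b0 + (u : ℤ)))) p) h r]
  unfold lhsW
  have hnn : ∀ u : ℕ, 0 ≤ pv (wclW cap a (D (b0 + (u : ℤ))) (D' (b0 + (u : ℤ)))) p := by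
    intro u
    refine Finset.sum_nonneg fun i _ => ?_
    exact wclW_nonneg hcap ha (hD' _) i (p i)
  refine le_trans ?_ (Finset.sum_le_sum_of_subset_of_nonneg
    (Finset.filter_subset (fun u => u + h ≤ r * h) (range (r * h))) fun u _ _ => hnn u)
  refine Finset.sum_le_sum fun u hu => ?_
  have hu2 : u + h ≤ r * h := (Finset.mem_filter.1 hu).2
  refine Finset.sum_le_sum fun i _ => ?_
  have hnn' : 0 ≤ wclW cap a (D (b0 + (u : ℤ))) (D' (b0 + (u : ℤ))) i (p i) :=
    wclW_nonneg hcap ha (hD' _) i (p i)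
  split_ifs with hc
  · show _ ≤ min (D (b0 + (u : ℤ)) i (p i) - D' (b0 + (u : ℤ)) i (p i)) (cap * a i (p i))
    have h1 : D (b0 + (u : ℤ)) i (p i) ≤ D b0 i (p i) := anti_int hD i (p i) b0 u
    have h2 : D (b0 + ((r * h : ℕ) : ℤ)) i (p i) ≤ D (b0 + (u : ℤ) + h) i (p i) := by
      have := anti_int hD i (p i) (b0 + (u : ℤ) + h) (r * h - (u + h))
      have he : b0 + (u : ℤ) + h + ((r * h - (u + h) : ℕ) : ℤ) = b0 + ((r * h : ℕ) : ℤ) := by
        rw [Nat.cast_sub hu2]
        push_cast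
        ring
      rwa [he] at this
    have h3 := hgd i hc.1 (b0 + (u : ℤ))
    have h4 := hc.2
    refine le_min ?_ ?_
    · linarith
    · linarith
  · exact hnn'

/-- **(H3b), weighted, one machine**, absolute units. -/
theorem h3bW {PP : Set (I → E)} {a : I → E → ℝ} {cap zeta e1 e2 Bm : ℝ} {r h : ℕ}
    {act : ℕ → Prop} [DecidablePred act] {D D' : ℤ → I → E → ℝ}
    (hD : ∀ b i e, D (b + 1) i e ≤ D b i e) (hh : 0 < h) {o : ℤ}
    {Y X Q : ℕ → ℕ → ℕ → I → E → ℝ}
    (run : ∀ ph, ph < h → RunW PP a cap zeta e1 e2 Bm r act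
      (fun t => D (o + ph + (t : ℤ) * h)) (fun t => D' (o + ph + (t : ℤ) * h))
      (Y ph) (X ph) (Q ph))
    (hD' : ∀ b i e, D' b i e ≤ D b i e)
    {p : I → E} (hp : p ∈ PP) (gd : I → Prop) [DecidablePred gd]
    (hgd : ∀ i, gd i → ∀ b : ℤ, D' b i (p i) ≤ D (b + h) i (p i))
    (N : ℕ) (A : ℕ → Prop) [DecidablePred A] (hA : ∀ j, A j → act j)
    {pot0 : ℝ} (hpot : ∀ ph, ph < h → potW a (Y ph 0 0) p ≤ pot0) (he : 0 ≤ e1 + e2)
    {G : ℤ → ℝ}
    (hG : ∀ ph, ph < h → ∀ j, j < N → A j → ∀ k, k < r →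
      pv (D (o + ph + ((j * r + k : ℕ) : ℤ) * h)) p
        - pair (D' (o + ph + ((j * r + k : ℕ) : ℤ) * h)) (X ph j k) ≤
      G (o + ph + ((j * r + k : ℕ) : ℤ) * h))
    {m : ℕ → ℝ} {Cm Mt : ℝ} (hCm : 0 ≤ Cm) (hm : ∀ j, j < N → act j → cap ≤ Cm * m j)
    (hm0 : ∀ j, j < N → 0 ≤ m j) (hm1 : ∑ j ∈ range N, m j ≤ Mt) :
    ∑ j ∈ (range N).filter A, lhsW a D p gd cap h (r * h) (o + ((j * (r * h) : ℕ) : ℤ)) ≤
      3 / 2 * ∑ j ∈ (range N).filter A, ∑ u ∈ range (r * h), G (o + ((j * (r * h) : ℕ) : ℤ) + u)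
      + ∑ j ∈ (range N).filter (fun j => act j ∧ ¬ A j),
          (h : ℝ) * (3 / 2 * Cm * (wt a p * Real.log zeta⁻¹ + Bm)) * m j
      + 3 / 2 * ((h : ℝ) * cap * pot0
        + (h : ℝ) * (Cm * Mt) * (wt a p * Real.log (1 - zeta)⁻¹ + zeta * Bm)
        + ((r * h : ℕ) : ℝ) * (Cm * Mt) * (e1 + e2)) := by
  have hR0 := run 0 hh
  have hcap : 0 < cap := hR0.cap_pos
  have hap : ∀ i e, 0 < a i e := hR0.a_pos
  have hz := hR0.zeta_pos
  have hz1 := hR0.zeta_lt
  have hlz : 0 ≤ Real.log zeta⁻¹ := Real.log_nonneg (by rw [one_le_inv₀ hz]; exact hz1.le)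
  have hlz1 : 0 ≤ Real.log (1 - zeta)⁻¹ := Real.log_nonneg (by
    rw [one_le_inv₀ (by linarith)]; linarith)
  have hwt : 0 ≤ wt a p := Finset.sum_nonneg fun i _ => (hap i (p i)).le
  have hBm : 0 ≤ Bm := by
    have h1 := hR0.mass_le 0 0 (Nat.zero_le r)
    have h2 : 0 ≤ mass a (Y 0 0 0) := Finset.sum_nonneg fun i _ => Finset.sum_nonneg fun e _ =>
      (mul_pos (hap i e) (hR0.start_pos i e)).le
    linarith
  -- one phase
  have hph : ∀ ph, ph < h → 2 / 3 * ∑ j ∈ (range N).filter A,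
        ∑ k ∈ range r, pv (wclW cap a (D (o + ph + ((j * r + k : ℕ) : ℤ) * h))
          (D' (o + ph + ((j * r + k : ℕ) : ℤ) * h))) p ≤
      ∑ j ∈ (range N).filter A, ∑ k ∈ range r, G (o + ph + ((j * r + k : ℕ) : ℤ) * h)
      + cap * (pot0
        + (((range N).filter A).card : ℝ) * (wt a p * Real.log (1 - zeta)⁻¹ + zeta * Bm)
        + (((range N).filter (fun j => act j ∧ ¬ A j)).card : ℝ) *
            (wt a p * Real.log zeta⁻¹ + Bm)
        + (((range N).filter A).card : ℝ) * ((r : ℝ) * (e1 + e2))) := by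
    intro ph hph
    have h1 := (run ph hph).regret hp N A hA
    have h2 : ∑ j ∈ (range N).filter A, ∑ k ∈ range r,
        (pv (D (o + ph + ((j * r + k : ℕ) : ℤ) * h)) p
          - pair (D' (o + ph + ((j * r + k : ℕ) : ℤ) * h)) (X ph j k)) ≤
        ∑ j ∈ (range N).filter A, ∑ k ∈ range r, G (o + ph + ((j * r + k : ℕ) : ℤ) * h) := by
      refine Finset.sum_le_sum fun j hj => Finset.sum_le_sum fun k hk => ?_
      have hj' := Finset.mem_filter.1 hj
      exact hG ph hph j (Finset.mem_range.1 hj'.1) hj'.2 k (Finset.mem_range.1 hk)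
    have h3 := mul_le_mul_of_nonneg_left (hpot ph hph) hcap.le
    rw [mul_add cap, mul_add cap, mul_add cap] at h1 ⊢
    linarith
  have hsum := Finset.sum_le_sum (s := range h) fun ph hph' => hph ph (Finset.mem_range.1 hph')
  rw [Finset.sum_add_distrib] at hsum
  simp only [Finset.sum_const, Finset.card_range, nsmul_eq_mul] at hsum
  rw [← Finset.mul_sum] at hsum
  have eA : ∀ F : ℕ → ℕ → ℕ → ℝ, ∑ ph ∈ range h, ∑ j ∈ (range N).filter A, ∑ k ∈ range r, F ph j k
      = ∑ j ∈ (range N).filter A, ∑ k ∈ range r, ∑ ph ∈ range h, F ph j k := by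
    intro F
    rw [Finset.sum_comm]
    refine Finset.sum_congr rfl fun j _ => ?_
    rw [Finset.sum_comm]
  rw [eA, eA] at hsum
  have hidx : ∀ (ph j k : ℕ), o + (ph : ℤ) + ((j * r + k : ℕ) : ℤ) * h =
      o + ((j * (r * h) : ℕ) : ℤ) + ((k * h + ph : ℕ) : ℤ) := by
    intro ph j k
    push_cast
    ring
  have eG : ∑ j ∈ (range N).filter A, ∑ k ∈ range r, ∑ ph ∈ range h,
      G (o + ph + ((j * r + k : ℕ) : ℤ) * h) =
      ∑ j ∈ (range N).filter A, ∑ u ∈ range (r * h), G (o + ((j * (r * h) : ℕ) : ℤ) + u) := by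
    refine Finset.sum_congr rfl fun j _ => ?_
    rw [sum_range_mul' (fun u => G (o + ((j * (r * h) : ℕ) : ℤ) + u)) h r]
    refine Finset.sum_congr rfl fun k _ => Finset.sum_congr rfl fun ph _ => ?_
    rw [hidx]
  have eL : ∑ j ∈ (range N).filter A, lhsW a D p gd cap h (r * h)
        (o + ((j * (r * h) : ℕ) : ℤ)) ≤
      ∑ j ∈ (range N).filter A, ∑ k ∈ range r, ∑ ph ∈ range h,
        pv (wclW cap a (D (o + ph + ((j * r + k : ℕ) : ℤ) * h))
          (D' (o + ph + ((j * r + k : ℕ) : ℤ) * h))) p := by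
    refine Finset.sum_le_sum fun j _ => ?_
    refine (lhsW_le hap hD hD' p gd hcap h r hgd _).trans (le_of_eq ?_)
    refine Finset.sum_congr rfl fun k _ => Finset.sum_congr rfl fun ph _ => ?_
    rw [hidx]
  rw [eG] at hsum
  -- number of active blocks
  have hcardA : (((range N).filter A).card : ℝ) * cap ≤ Cm * Mt := by
    have h1 : ∑ j ∈ (range N).filter A, cap ≤ ∑ j ∈ (range N).filter A, Cm * m j := by
      refine Finset.sum_le_sum fun j hj => ?_
      have hj' := Finset.mem_filter.1 hj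
      exact hm j (Finset.mem_range.1 hj'.1) (hA j hj'.2)
    have h2 : ∑ j ∈ (range N).filter A, Cm * m j ≤ ∑ j ∈ range N, Cm * m j :=
      Finset.sum_le_sum_of_subset_of_nonneg (Finset.filter_subset _ _) fun j hj _ =>
        mul_nonneg hCm (hm0 j (Finset.mem_range.1 hj))
    have h3 : ∑ j ∈ range N, Cm * m j = Cm * ∑ j ∈ range N, m j := by rw [Finset.mul_sum]
    have h4 := mul_le_mul_of_nonneg_left hm1 hCm
    rw [Finset.sum_const, nsmul_eq_mul] at h1
    linarith
  have hrest : (((range N).filter (fun j => act j ∧ ¬ A j)).card : ℝ) * cap ≤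
      ∑ j ∈ (range N).filter (fun j => act j ∧ ¬ A j), Cm * m j := by
    have : ∑ j ∈ (range N).filter (fun j => act j ∧ ¬ A j), cap ≤
        ∑ j ∈ (range N).filter (fun j => act j ∧ ¬ A j), Cm * m j := by
      refine Finset.sum_le_sum fun j hj => ?_
      have hj' := Finset.mem_filter.1 hj
      exact hm j (Finset.mem_range.1 hj'.1) hj'.2.1
    rwa [Finset.sum_const, nsmul_eq_mul] at this
  set nA : ℝ := (((range N).filter A).card : ℝ) with hnA
  set nR : ℝ := (((range N).filter (fun j => act j ∧ ¬ A j)).card : ℝ) with hnR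
  set SL : ℝ := ∑ j ∈ (range N).filter A, lhsW a D p gd cap h (r * h)
    (o + ((j * (r * h) : ℕ) : ℤ)) with hSL
  set SG : ℝ := ∑ j ∈ (range N).filter A, ∑ u ∈ range (r * h),
    G (o + ((j * (r * h) : ℕ) : ℤ) + u) with hSG
  have hh0 : (0 : ℝ) ≤ h := by positivity
  have hr0 : (0 : ℝ) ≤ r := by positivity
  have c1 : 0 ≤ wt a p * Real.log zeta⁻¹ + Bm := by
    have := mul_nonneg hwt hlz
    linarith
  have c2 : 0 ≤ wt a p * Real.log (1 - zeta)⁻¹ + zeta * Bm := by
    have h1 := mul_nonneg hwt hlz1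
    have h2 := mul_nonneg hz.le hBm
    linarith
  have t1 : (h : ℝ) * (cap * (nR * (wt a p * Real.log zeta⁻¹ + Bm))) ≤
      2 / 3 * ∑ j ∈ (range N).filter (fun j => act j ∧ ¬ A j),
        (h : ℝ) * (3 / 2 * Cm * (wt a p * Real.log zeta⁻¹ + Bm)) * m j := by
    have h7 := mul_le_mul_of_nonneg_left hrest (mul_nonneg hh0 c1)
    calc (h : ℝ) * (cap * (nR * (wt a p * Real.log zeta⁻¹ + Bm)))
        = (h : ℝ) * (wt a p * Real.log zeta⁻¹ + Bm) * (nR * cap) := by ring
      _ ≤ (h : ℝ) * (wt a p * Real.log zeta⁻¹ + Bm) *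
          ∑ j ∈ (range N).filter (fun j => act j ∧ ¬ A j), Cm * m j := h7
      _ = _ := by
          rw [Finset.mul_sum, Finset.mul_sum]
          refine Finset.sum_congr rfl fun j _ => ?_
          ring
  have t2 : (h : ℝ) * (cap * (nA * (wt a p * Real.log (1 - zeta)⁻¹ + zeta * Bm))) ≤
      (h : ℝ) * (Cm * Mt) * (wt a p * Real.log (1 - zeta)⁻¹ + zeta * Bm) := by
    have h7 := mul_le_mul_of_nonneg_left hcardA (mul_nonneg hh0 c2)
    calc (h : ℝ) * (cap * (nA * (wt a p * Real.log (1 - zeta)⁻¹ + zeta * Bm)))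
        = (h : ℝ) * (wt a p * Real.log (1 - zeta)⁻¹ + zeta * Bm) * (nA * cap) := by ring
      _ ≤ (h : ℝ) * (wt a p * Real.log (1 - zeta)⁻¹ + zeta * Bm) * (Cm * Mt) := h7
      _ = _ := by ring
  have t3 : (h : ℝ) * (cap * (nA * ((r : ℝ) * (e1 + e2)))) ≤
      ((r * h : ℕ) : ℝ) * (Cm * Mt) * (e1 + e2) := by
    have h7 := mul_le_mul_of_nonneg_left hcardA (mul_nonneg (mul_nonneg hh0 hr0) he)
    calc (h : ℝ) * (cap * (nA * ((r : ℝ) * (e1 + e2))))
        = (h : ℝ) * (r : ℝ) * (e1 + e2) * (nA * cap) := by ring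
      _ ≤ (h : ℝ) * (r : ℝ) * (e1 + e2) * (Cm * Mt) := h7
      _ = _ := by push_cast; ring
  have hsum' : 2 / 3 * SL ≤ SG + (h : ℝ) * (cap * (pot0
        + nA * (wt a p * Real.log (1 - zeta)⁻¹ + zeta * Bm)
        + nR * (wt a p * Real.log zeta⁻¹ + Bm)
        + nA * ((r : ℝ) * (e1 + e2)))) := by linarith
  have hsplit : (h : ℝ) * (cap * (pot0
        + nA * (wt a p * Real.log (1 - zeta)⁻¹ + zeta * Bm)
        + nR * (wt a p * Real.log zeta⁻¹ + Bm)
        + nA * ((r : ℝ) * (e1 + e2)))) =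
      (h : ℝ) * cap * pot0
      + (h : ℝ) * (cap * (nA * (wt a p * Real.log (1 - zeta)⁻¹ + zeta * Bm)))
      + (h : ℝ) * (cap * (nR * (wt a p * Real.log zeta⁻¹ + Bm)))
      + (h : ℝ) * (cap * (nA * ((r : ℝ) * (e1 + e2)))) := by ring
  rw [hsplit] at hsum'
  linarith

end Vale.Agent.P315.H330.W
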