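import Mathlib

/-!
Row-wise entropic regret lemma (P315, note 14235, lemma MD), in the robust form for
approximate minimisers (note of helper330).  Plain finite sums.
-/

open Finset

namespace Vale.Agent.P315.H330

variable {I E : Type*} [Fintype I] [Fintype E]

/-- the pairing `sum_i sum_e L i e * x i e` -/
noncomputable def pair (L x : I → E → ℝ) : ℝ := ∑ i, ∑ e, L i e * x i e

/-- negative entropy, summed over the rows -/
noncomputable def ent (x : I → E → ℝ) : ℝ := ∑ i, ∑ e, x i e * Real.log (x i e)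

/-- every row is a probability distribution -/
def Stoch (x : I → E → ℝ) : Prop := (∀ i e, 0 ≤ x i e) ∧ ∀ i, ∑ e, x i e = 1

lemma pair_add_left (L M x : I → E → ℝ) : pair (fun i e => L i e + M i e) x = pair L x + pair M x := by
  simp only [pair, add_mul, Finset.sum_add_distrib]

lemma pair_sub_left (L M x : I → E → ℝ) : pair (fun i e => L i e - M i e) x = pair L x - pair M x := by
  simp only [pair, sub_mul, Finset.sum_sub_distrib]

lemma pair_smul_left (c : ℝ) (L x : I → E → ℝ) : pair (fun i e => c * L i e) x = c * pair L x := by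
  simp only [pair, mul_assoc, Finset.mul_sum]

lemma pair_comb_right (L x y : I → E → ℝ) (a b : ℝ) :
    pair L (fun i e => a * x i e + b * y i e) = a * pair L x + b * pair L y := by
  simp only [pair, Finset.mul_sum, ← Finset.sum_add_distrib]
  refine Finset.sum_congr rfl fun i _ => Finset.sum_congr rfl fun e _ => ?_
  ring

lemma pair_le_pair {L M x : I → E → ℝ} (hx : ∀ i e, 0 ≤ x i e) (h : ∀ i e, L i e ≤ M i e) :
    pair L x ≤ pair M x :=
  Finset.sum_le_sum fun i _ => Finset.sum_le_sum fun e _ =>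
    mul_le_mul_of_nonneg_right (h i e) (hx i e)

lemma pair_nonneg {L x : I → E → ℝ} (hx : ∀ i e, 0 ≤ x i e) (h : ∀ i e, 0 ≤ L i e) :
    0 ≤ pair L x :=
  Finset.sum_nonneg fun i _ => Finset.sum_nonneg fun e _ => mul_nonneg (h i e) (hx i e)

/-- one coordinate: `x log x - x log y - s x >= x - y (1 + 2 s)` -/
lemma coord_gibbs {x y s : ℝ} (hx : 0 ≤ x) (hy : 0 ≤ y) (hxy : y = 0 → x = 0) (hs0 : 0 ≤ s)
    (hs1 : s ≤ 1) :
    x - y * (1 + 2 * s) ≤ x * Real.log x - x * Real.log y - s * x := by
  rcases eq_or_lt_of_le hx with h0 | hxpos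
  · rw [← h0]
    have : 0 ≤ y * (1 + 2 * s) := by positivity
    simp only [zero_mul, mul_zero, sub_zero]
    linarith
  · have hypos : 0 < y := by
      rcases eq_or_lt_of_le hy with h | h
      · exact absurd (hxy h.symm) (ne_of_gt hxpos)
      · exact h
    have hexp : Real.exp s ≤ 1 + 2 * s := by
      have h := Real.abs_exp_sub_one_le (x := s) (by rw [abs_of_nonneg hs0]; exact hs1)
      rw [abs_of_nonneg hs0] at h
      have := le_abs_self (Real.exp s - 1)
      linarith
    have hz : 0 < y * Real.exp s := mul_pos hypos (Real.exp_pos s)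
    have hlog : Real.log (y * Real.exp s) = Real.log y + s := by
      rw [Real.log_mul hypos.ne' (Real.exp_pos s).ne', Real.log_exp]
    have h1 : 1 - (x / (y * Real.exp s))⁻¹ ≤ Real.log (x / (y * Real.exp s)) :=
      Real.one_sub_inv_le_log_of_pos (div_pos hxpos hz)
    rw [Real.log_div hxpos.ne' hz.ne', hlog, inv_div] at h1
    have h2 : x * (1 - y * Real.exp s / x) ≤ x * (Real.log x - (Real.log y + s)) :=
      mul_le_mul_of_nonneg_left h1 hx
    have h3 : x * (1 - y * Real.exp s / x) = x - y * Real.exp s := by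
      field_simp
    have h4 : y * Real.exp s ≤ y * (1 + 2 * s) := mul_le_mul_of_nonneg_left hexp hy
    rw [h3] at h2
    nlinarith [h2, h4]

lemma sum_stoch {x : I → E → ℝ} (hx : Stoch x) : ∑ i, ∑ e, x i e = (Fintype.card I : ℝ) := by
  rw [Finset.sum_congr rfl fun i _ => hx.2 i]
  simp

/-- The key inequality: at an approximate minimiser `xh` of `<L,.> + ent` on a convex set of
row-stochastic arrays, `<L,x> + ent x - <s,x>` is at least
`<L,xh> + ent xh - 2 <s,xh>` up to a small error, for all `0 <= s <= 1`. -/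
theorem key {X : Set (I → E → ℝ)} (hX : ∀ x ∈ X, Stoch x)
    (hconv : ∀ x ∈ X, ∀ y ∈ X, ∀ a : ℝ, 0 ≤ a → a ≤ 1 →
      (fun i e => (1 - a) * x i e + a * y i e) ∈ X)
    {L xh : I → E → ℝ} {tau : ℝ} (hxh : xh ∈ X)
    (hmin : ∀ y ∈ X, pair L xh + ent xh ≤ pair L y + ent y + tau)
    {s : I → E → ℝ} (hs0 : ∀ i e, 0 ≤ s i e) (hs1 : ∀ i e, s i e ≤ 1)
    {x : I → E → ℝ} (hx : x ∈ X) {th : ℝ} (hth0 : 0 < th) (hth1 : th ≤ 1 / 2) :
    pair L xh + ent xh - 2 * pair s xh - (4 * th * (Fintype.card I : ℝ) + tau / th) ≤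
      pair L x + ent x - pair s x := by
  set y : I → E → ℝ := fun i e => (1 - th) * xh i e + th * x i e with hy
  have hyX : y ∈ X := hconv xh hxh x hx th hth0.le (by linarith)
  have sx := hX x hx
  have sxh := hX xh hxh
  have sy := hX y hyX
  have hyx : ∀ i e, y i e = 0 → x i e = 0 := by
    intro i e h
    have h1 : 0 ≤ (1 - th) * xh i e := mul_nonneg (by linarith) (sxh.1 i e)
    have h2 : 0 ≤ th * x i e := mul_nonneg hth0.le (sx.1 i e)
    have h3 : th * x i e = 0 := by
      have : (1 - th) * xh i e + th * x i e = 0 := h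
      linarith
    rcases mul_eq_zero.1 h3 with h4 | h4
    · exact absurd h4 hth0.ne'
    · exact h4
  have hyxh : ∀ i e, y i e = 0 → xh i e = 0 := by
    intro i e h
    have h1 : 0 ≤ (1 - th) * xh i e := mul_nonneg (by linarith) (sxh.1 i e)
    have h2 : 0 ≤ th * x i e := mul_nonneg hth0.le (sx.1 i e)
    have h3 : (1 - th) * xh i e = 0 := by
      have : (1 - th) * xh i e + th * x i e = 0 := h
      linarith
    rcases mul_eq_zero.1 h3 with h4 | h4
    · exact absurd h4 (by linarith)
    · exact h4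
  -- the cross terms `sum x log y`, `sum xh log y`
  set Cx : ℝ := ∑ i, ∑ e, x i e * Real.log (y i e) with hCx
  set Ch : ℝ := ∑ i, ∑ e, xh i e * Real.log (y i e) with hCh
  have hentxy : ent y = (1 - th) * Ch + th * Cx := by
    simp only [ent, hCx, hCh, Finset.mul_sum, ← Finset.sum_add_distrib]
    refine Finset.sum_congr rfl fun i _ => Finset.sum_congr rfl fun e _ => ?_
    rw [show y i e = (1 - th) * xh i e + th * x i e from rfl]
    ring
  have hsy := sum_stoch sy
  have hsx := sum_stoch sx
  have hsxh := sum_stoch sxh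
  -- tangent inequality
  have ht : Ch ≤ ent xh := by
    have h : ∀ i e, xh i e - y i e * (1 + 2 * 0) ≤
        xh i e * Real.log (xh i e) - xh i e * Real.log (y i e) - 0 * xh i e := fun i e =>
      coord_gibbs (sxh.1 i e) (sy.1 i e) (hyxh i e) le_rfl zero_le_one
    have h' : ∑ i, ∑ e, (xh i e - y i e * (1 + 2 * 0)) ≤
        ∑ i, ∑ e, (xh i e * Real.log (xh i e) - xh i e * Real.log (y i e) - 0 * xh i e) :=
      Finset.sum_le_sum fun i _ => Finset.sum_le_sum fun e _ => h i e
    have e1 : ∑ i, ∑ e, (xh i e - y i e * (1 + 2 * 0)) = 0 := by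
      simp only [mul_zero, add_zero, mul_one, Finset.sum_sub_distrib, hsxh, hsy, sub_self]
    have e2 : ∑ i, ∑ e, (xh i e * Real.log (xh i e) - xh i e * Real.log (y i e) - 0 * xh i e)
        = ent xh - Ch := by
      simp only [zero_mul, sub_zero, Finset.sum_sub_distrib, ent, hCh]
    linarith
  -- Gibbs for x
  have hg : -(2 * pair s y) ≤ ent x - Cx - pair s x := by
    have h : ∀ i e, x i e - y i e * (1 + 2 * s i e) ≤
        x i e * Real.log (x i e) - x i e * Real.log (y i e) - s i e * x i e := fun i e =>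
      coord_gibbs (sx.1 i e) (sy.1 i e) (hyx i e) (hs0 i e) (hs1 i e)
    have h' : ∑ i, ∑ e, (x i e - y i e * (1 + 2 * s i e)) ≤
        ∑ i, ∑ e, (x i e * Real.log (x i e) - x i e * Real.log (y i e) - s i e * x i e) :=
      Finset.sum_le_sum fun i _ => Finset.sum_le_sum fun e _ => h i e
    have e1 : ∑ i, ∑ e, (x i e - y i e * (1 + 2 * s i e)) = -(2 * pair s y) := by
      have : ∑ i, ∑ e, (x i e - y i e * (1 + 2 * s i e)) =
          (∑ i, ∑ e, x i e) - (∑ i, ∑ e, y i e) - 2 * pair s y := by
        simp only [pair, Finset.mul_sum, ← Finset.sum_sub_distrib]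
        refine Finset.sum_congr rfl fun i _ => Finset.sum_congr rfl fun e _ => ?_
        ring
      rw [this, hsx, hsy]
      ring
    have e2 : ∑ i, ∑ e, (x i e * Real.log (x i e) - x i e * Real.log (y i e) - s i e * x i e)
        = ent x - Cx - pair s x := by
      simp only [Finset.sum_sub_distrib, ent, hCx, pair]
    linarith
  -- xh is close to y
  have hlog1 : -(2 * th) ≤ Real.log (1 - th) := by
    have h := Real.one_sub_inv_le_log_of_pos (x := 1 - th) (by linarith)
    have h1 : (1 - th)⁻¹ ≤ 1 + 2 * th := by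
      rw [inv_le_comm₀ (by linarith) (by linarith)]
      rw [inv_le_iff_one_le_mul₀ (by linarith)]
      nlinarith
    linarith
  have hc : ent xh - Ch ≤ 2 * th * (Fintype.card I : ℝ) := by
    have h : ∀ i e, xh i e * Real.log (xh i e) - xh i e * Real.log (y i e) ≤ 2 * th * xh i e := by
      intro i e
      rcases eq_or_lt_of_le (sxh.1 i e) with h0 | hpos
      · rw [← h0]; simp
      · have hle : (1 - th) * xh i e ≤ y i e := by
          have : 0 ≤ th * x i e := mul_nonneg hth0.le (sx.1 i e)
          show (1 - th) * xh i e ≤ (1 - th) * xh i e + th * x i e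
          linarith
        have hpos' : 0 < (1 - th) * xh i e := mul_pos (by linarith) hpos
        have hl := Real.log_le_log hpos' hle
        rw [Real.log_mul (by linarith) hpos.ne'] at hl
        have : xh i e * (Real.log (xh i e) - Real.log (y i e)) ≤ xh i e * (2 * th) :=
          mul_le_mul_of_nonneg_left (by linarith) hpos.le
        linarith
    have h' : ∑ i, ∑ e, (xh i e * Real.log (xh i e) - xh i e * Real.log (y i e)) ≤
        ∑ i, ∑ e, 2 * th * xh i e :=
      Finset.sum_le_sum fun i _ => Finset.sum_le_sum fun e _ => h i e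
    have e1 : ∑ i, ∑ e, (xh i e * Real.log (xh i e) - xh i e * Real.log (y i e)) = ent xh - Ch := by
      simp only [Finset.sum_sub_distrib, ent, hCh]
    have e2 : ∑ i, ∑ e, 2 * th * xh i e = 2 * th * (Fintype.card I : ℝ) := by
      rw [← hsxh]
      simp only [Finset.mul_sum]
    linarith
  -- minimality
  have hm := hmin y hyX
  have hLy : pair L y = (1 - th) * pair L xh + th * pair L x := pair_comb_right L xh x _ _
  have hsyy : pair s y = (1 - th) * pair s xh + th * pair s x := pair_comb_right s xh x _ _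
  have hsx1 : pair s x ≤ (Fintype.card I : ℝ) := by
    calc pair s x ≤ ∑ i, ∑ e, x i e :=
          Finset.sum_le_sum fun i _ => Finset.sum_le_sum fun e _ => by
            have := mul_le_mul_of_nonneg_right (hs1 i e) (sx.1 i e)
            linarith
      _ = _ := hsx
  have hsxh0 : 0 ≤ pair s xh := pair_nonneg sxh.1 hs0
  -- th * (<L,x-xh> + Cx - Ch) >= -tau
  have h5 : -tau ≤ th * ((pair L x - pair L xh) + (Cx - Ch)) := by
    have : ent y - ent xh ≤ th * (Cx - Ch) := by rw [hentxy]; nlinarith [ht]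
    rw [hLy] at hm
    nlinarith [hm, this]
  have h6 : -(tau / th) ≤ (pair L x - pair L xh) + (Cx - Ch) := by
    have h7 : -tau / th ≤ (th * ((pair L x - pair L xh) + (Cx - Ch))) / th :=
      div_le_div_of_nonneg_right h5 hth0.le
    rw [mul_div_cancel_left₀ _ hth0.ne'] at h7
    rw [neg_div] at h7
    exact h7
  have h8 : pair s y ≤ pair s xh + th * (Fintype.card I : ℝ) := by
    rw [hsyy]
    nlinarith [mul_le_mul_of_nonneg_left hsx1 hth0.le, mul_nonneg hth0.le hsxh0]
  linarith

lemma ent_nonpos {x : I → E → ℝ} (hx : Stoch x) : ent x ≤ 0 := by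
  refine Finset.sum_nonpos fun i _ => Finset.sum_nonpos fun e _ => ?_
  have h1 : x i e ≤ 1 := by
    rw [← hx.2 i]
    exact Finset.single_le_sum (fun e' _ => hx.1 i e') (Finset.mem_univ e)
  exact mul_nonpos_of_nonneg_of_nonpos (hx.1 i e) (Real.log_nonpos (hx.1 i e) h1)

lemma ent_ge [Nonempty E] {x : I → E → ℝ} (hx : Stoch x) :
    -((Fintype.card I : ℝ) * Real.log (Fintype.card E : ℝ)) ≤ ent x := by
  have hc : (0 : ℝ) < (Fintype.card E : ℝ) := by exact_mod_cast Fintype.card_pos
  have hrow : ∀ i, -Real.log (Fintype.card E : ℝ) ≤ ∑ e, x i e * Real.log (x i e) := by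
    intro i
    have h : ∀ e, x i e - (Fintype.card E : ℝ)⁻¹ * (1 + 2 * 0) ≤
        x i e * Real.log (x i e) - x i e * Real.log ((Fintype.card E : ℝ)⁻¹) - 0 * x i e :=
      fun e => coord_gibbs (hx.1 i e) (inv_nonneg.2 hc.le)
        (fun h => absurd h (inv_pos.2 hc).ne') le_rfl zero_le_one
    have h' := Finset.sum_le_sum (s := Finset.univ) fun e _ => h e
    have e1 : ∑ e, (x i e - (Fintype.card E : ℝ)⁻¹ * (1 + 2 * 0)) = 0 := by
      simp only [mul_zero, add_zero, mul_one, Finset.sum_sub_distrib, hx.2 i, Finset.sum_const,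
        Finset.card_univ, nsmul_eq_mul]
      rw [mul_inv_cancel₀ hc.ne', sub_self]
    have e2 : ∑ e, (x i e * Real.log (x i e) - x i e * Real.log ((Fintype.card E : ℝ)⁻¹)
        - 0 * x i e) = ∑ e, x i e * Real.log (x i e) + Real.log (Fintype.card E : ℝ) := by
      simp only [zero_mul, sub_zero, Finset.sum_sub_distrib, Real.log_inv, ← Finset.sum_mul,
        hx.2 i]
      ring
    linarith
  calc -((Fintype.card I : ℝ) * Real.log (Fintype.card E : ℝ))
      = ∑ _i : I, -Real.log (Fintype.card E : ℝ) := by simp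
    _ ≤ _ := Finset.sum_le_sum fun i _ => hrow i

/-- clipped decrease of the values from round `k` to round `k + 1` -/
noncomputable def wt (D : ℕ → I → E → ℝ) (cap : ℝ) (k : ℕ) : I → E → ℝ :=
  fun i e => min (D k i e - D (k + 1) i e) cap

/-- the cumulative linear term of round `k` -/
noncomputable def Ls (D : ℕ → I → E → ℝ) (cap : ℝ) (k : ℕ) : I → E → ℝ :=
  fun i e => cap⁻¹ * (2 * ∑ j ∈ Finset.range (k + 1), D j i e
    - ∑ j ∈ Finset.range k, wt D cap j i e)

lemma pair_Ls (D : ℕ → I → E → ℝ) (cap : ℝ) (k : ℕ) (x : I → E → ℝ) :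
    pair (Ls D cap k) x = cap⁻¹ * (2 * ∑ j ∈ Finset.range (k + 1), pair (D j) x
      - ∑ j ∈ Finset.range k, pair (wt D cap j) x) := by
  have h1 : ∀ (n : ℕ) (F : ℕ → I → E → ℝ),
      ∑ j ∈ Finset.range n, pair (F j) x = ∑ i, ∑ e, (∑ j ∈ Finset.range n, F j i e) * x i e := by
    intro n F
    simp only [pair]
    rw [Finset.sum_comm]
    refine Finset.sum_congr rfl fun i _ => ?_
    rw [Finset.sum_comm]
    refine Finset.sum_congr rfl fun e _ => ?_
    rw [Finset.sum_mul]
  rw [h1, h1]
  simp only [pair, Ls, Finset.mul_sum, ← Finset.sum_sub_distrib]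
  refine Finset.sum_congr rfl fun i _ => Finset.sum_congr rfl fun e _ => ?_
  rw [← Finset.mul_sum]
  ring_nf

/-- **Regret lemma (MD)** for approximate minimisers. `D k` are the nonincreasing values,
`xh k` the approximate minimiser of round `k` (computed from `D 0 .. D k` only), `P` any
element of the convex set `X`. -/
theorem md_regret [Nonempty E] {X : Set (I → E → ℝ)} (hX : ∀ x ∈ X, Stoch x)
    (hconv : ∀ x ∈ X, ∀ y ∈ X, ∀ a : ℝ, 0 ≤ a → a ≤ 1 →
      (fun i e => (1 - a) * x i e + a * y i e) ∈ X)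
    {D : ℕ → I → E → ℝ} (hD : ∀ k i e, D (k + 1) i e ≤ D k i e) {cap : ℝ} (hcap : 0 < cap)
    {xh : ℕ → I → E → ℝ} (hxh : ∀ k, xh k ∈ X) {tau : ℝ}
    (hmin : ∀ k, ∀ y ∈ X, pair (Ls D cap k) (xh k) + ent (xh k) ≤
      pair (Ls D cap k) y + ent y + tau)
    {P : I → E → ℝ} (hP : P ∈ X) {th : ℝ} (hth0 : 0 < th) (hth1 : th ≤ 1 / 2) (N : ℕ) :
    ∑ k ∈ Finset.range N, pair (wt D cap k) P ≤
      2 * ∑ k ∈ Finset.range N, (pair (D k) P - pair (D (k + 1)) (xh k))
      + cap * ((Fintype.card I : ℝ) * Real.log (Fintype.card E : ℝ))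
      + (N : ℝ) * (cap * (4 * th * (Fintype.card I : ℝ) + tau / th)) := by
  set m : ℝ := (Fintype.card I : ℝ) with hm
  set lE : ℝ := Real.log (Fintype.card E : ℝ) with hlE
  set err : ℝ := 4 * th * m + tau / th with herr
  have hlE0 : 0 ≤ lE := by
    apply Real.log_nonneg
    exact_mod_cast Fintype.card_pos
  have hm0 : 0 ≤ m := by rw [hm]; positivity
  have hci : 0 < cap⁻¹ := inv_pos.2 hcap
  -- one round
  have hround : ∀ k, ∀ x ∈ X,
      pair (Ls D cap k) (xh k) + ent (xh k) - cap⁻¹ * (2 * pair (D k) (xh k))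
        + cap⁻¹ * (2 * pair (D (k + 1)) (xh k)) - err ≤
      pair (Ls D cap k) x + ent x - cap⁻¹ * pair (wt D cap k) x := by
    intro k x hx
    have hs0 : ∀ i e, 0 ≤ cap⁻¹ * wt D cap k i e := fun i e =>
      mul_nonneg hci.le (le_min (sub_nonneg.2 (hD k i e)) hcap.le)
    have hs1 : ∀ i e, cap⁻¹ * wt D cap k i e ≤ 1 := fun i e => by
      have h := mul_le_mul_of_nonneg_left (min_le_right (D k i e - D (k + 1) i e) cap) hci.le
      rwa [inv_mul_cancel₀ hcap.ne'] at h
    have h := key hX hconv (hxh k) (hmin k) hs0 hs1 hx hth0 hth1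
    rw [pair_smul_left, pair_smul_left] at h
    have h2 : pair (wt D cap k) (xh k) ≤ pair (D k) (xh k) - pair (D (k + 1)) (xh k) := by
      rw [← pair_sub_left]
      exact pair_le_pair (hX _ (hxh k)).1 fun i e => min_le_left _ _
    have h3 := mul_le_mul_of_nonneg_left h2 hci.le
    have h4 : err = 4 * th * (Fintype.card I : ℝ) + tau / th := rfl
    linarith
  -- accumulated lower bound
  have hA : ∀ k, -(m * lE) + cap⁻¹ * (2 * ∑ j ∈ Finset.range k, pair (D (j + 1)) (xh j))
      - (k : ℝ) * err ≤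
      pair (Ls D cap k) (xh k) + ent (xh k) - cap⁻¹ * (2 * pair (D k) (xh k)) := by
    intro k
    induction k with
    | zero =>
      have h0 : pair (Ls D cap 0) (xh 0) = cap⁻¹ * (2 * pair (D 0) (xh 0)) := by
        rw [pair_Ls]; simp
      rw [h0]
      have := ent_ge (hX _ (hxh 0))
      simp only [Finset.range_zero, Finset.sum_empty, mul_zero, add_zero, Nat.cast_zero,
        zero_mul, sub_zero]
      linarith
    | succ k ih =>
      have h1 := hround k (xh (k + 1)) (hxh (k + 1))
      have h2 : pair (Ls D cap (k + 1)) (xh (k + 1)) =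
          pair (Ls D cap k) (xh (k + 1)) - cap⁻¹ * pair (wt D cap k) (xh (k + 1))
          + cap⁻¹ * (2 * pair (D (k + 1)) (xh (k + 1))) := by
        rw [pair_Ls, pair_Ls, Finset.sum_range_succ (fun j => pair (D j) (xh (k + 1))) (k + 1),
          Finset.sum_range_succ (fun j => pair (wt D cap j) (xh (k + 1))) k]
        ring
      rw [h2, Finset.sum_range_succ]
      push_cast
      nlinarith [h1, ih]
  rcases N with _ | k
  · simp only [Finset.range_zero, Finset.sum_empty, mul_zero, Nat.cast_zero, zero_mul, add_zero,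
      zero_add]
    positivity
  · have h1 := hround k P hP
    have h2 := hA k
    rw [pair_Ls D cap k P] at h1
    have h3 := ent_nonpos (hX P hP)
    have h4 : -(m * lE) + cap⁻¹ * (2 * ∑ j ∈ Finset.range (k + 1), pair (D (j + 1)) (xh j))
        - ((k : ℝ) + 1) * err ≤ cap⁻¹ * (2 * ∑ j ∈ Finset.range (k + 1), pair (D j) P
          - ∑ j ∈ Finset.range (k + 1), pair (wt D cap j) P) := by
      rw [Finset.sum_range_succ (fun j => pair (D (j + 1)) (xh j)),
        Finset.sum_range_succ (fun j => pair (wt D cap j) P)]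
      nlinarith [h1, h2, h3]
    have h5 := mul_le_mul_of_nonneg_left h4 hcap.le
    rw [← mul_assoc cap, mul_inv_cancel₀ hcap.ne', one_mul] at h5
    have h6 : cap * (-(m * lE) + cap⁻¹ * (2 * ∑ j ∈ Finset.range (k + 1), pair (D (j + 1)) (xh j))
        - ((k : ℝ) + 1) * err) = -(cap * (m * lE))
        + 2 * ∑ j ∈ Finset.range (k + 1), pair (D (j + 1)) (xh j)
        - ((k : ℝ) + 1) * (cap * err) := by
      field_simp
    rw [h6] at h5
    rw [Finset.sum_sub_distrib]
    push_cast
    linarith

end Vale.Agent.P315.H330
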